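import Vale.Agent.P032.S5.H678.Face
import Vale.Agent.P032.Carr.LamT

/-!
# P032, carriers: the distance-two rule in the frame with harmless points
-/

open Set Filter Topology Metric

noncomputable section

namespace Vale.Agent.P032.Carr

open Vale.Agent.P032.S5 Vale.Agent.P032.Six

variable {U : Fin 6 → Set ℂ} {T : ℂ → Set (Fin 6)} {Z : Set ℂ} {f : ℂ → Set (Fin 6)}
  {c : ℂ} {R δ₀ : ℝ}

theorem FaceT.fc {u : ℂ} {s : Set (Fin 6)} (F : FaceT T u s) : Fc T u s := ⟨F.2.1, F.2.2⟩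

theorem Zs.three (hZ : Zs T Z c R) {u : ℂ} (hu : dist u c ≤ R) (huZ : u ∉ Z) :
    (T u).ncard ≤ 3 := by
  by_contra hcon
  exact huZ (hZ.mem u (mem_closedBall.2 hu) (by omega))

theorem Zs.four_le (hZ : Zs T Z c R) (hl : Hml T f (ball c (R + 1))) {u : ℂ}
    (hu : dist u c ≤ R) : (T u).ncard ≤ 4 := by
  by_cases huZ : u ∈ Z
  · rw [hl.four u (hZ.sub huZ) (hZ.four u huZ)]
  · have := hZ.three hu huZ
    omega

/-- **Distance-two rule** for faces -/
theorem comp_T (h : Irr U T) (hZ : Zs T Z c R) (hl : Hml T f (ball c (R + 1)))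
    (hcl : ∀ z ∈ Z, ∀ z' ∈ Z, dist z z' ≠ 1) {u u' : ℂ} (hu : dist u c ≤ R - 1)
    (hu' : dist u' c ≤ R - 1) {s : Set (Fin 6)} (F : FaceT T u s) (F' : FaceT T u' sᶜ) :
    2 ≤ dist u u' := by
  refine F.fc.comp_harmless h F'.fc ?_ F.1 F'.1 fun q hq hq' h4 => ?_
  · rintro rfl
    have h1 : (univ : Set (Fin 6)) ⊆ T u := fun i _ => by
      by_cases hi : i ∈ s
      · exact F.2.1 hi
      · exact F'.2.1 hi
    have h2 := Set.ncard_le_ncard h1 (Set.toFinite _)
    have h3 := hZ.four_le hl (u := u) (by linarith)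
    rw [Set.ncard_univ, Nat.card_eq_fintype_card, Fintype.card_fin] at h2
    omega
  · have hqc : dist q c ≤ R := by
      have := dist_triangle q u c
      linarith
    have hqZ : q ∈ Z := hZ.mem q (mem_closedBall.2 hqc) h4
    have huZ : u ∉ Z := fun e => hcl q hqZ u e hq
    have huZ' : u' ∉ Z := fun e => hcl q hqZ u' e hq'
    refine ⟨(hl.four q (hZ.sub hqZ) h4).le, hZ.three (by linarith) huZ,
      hZ.three (by linarith) huZ', f q, ?_, hl.h1 q (hZ.sub hqZ) h4⟩
    refine Set.nonempty_of_ncard_ne_zero ?_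
    rw [hl.two q (hZ.sub hqZ) h4]
    omega

end Vale.Agent.P032.Carr
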