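import Vale.Agent.P032.S5.H678.Removal

/-!
# P032, carriers: the field `lens0` of the states at bases
-/

open Set Filter Topology Metric

noncomputable section

namespace Vale.Agent.P032.Carr

open Vale.Agent.P032.S5 Vale.Agent.P032.Six

variable {U : Fin 6 → Set ℂ} {T : ℂ → Set (Fin 6)} {Z : Set ℂ} {f : ℂ → Set (Fin 6)}
  {c : ℂ} {R δ₀ : ℝ}

/-- a scale for a property of the exceptional points of the closed disc -/
theorem Hm.scale_ball {K : ℂ → Set (Fin 6)} {x : ℂ} (H : Hm K Z f δ₀)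
    {P : Set (Fin 6) → Set (Fin 6) → Prop} (hP : ∀ z ∈ Z, dist z x ≤ 1 → P (K z) (f z)) :
    ∃ δ > 0, δ ≤ δ₀ / 2 ∧
      ∀ z ∈ Z, (∃ y, dist y x ≤ 1 ∧ dist y z ≤ δ) → P (K z) (f z) := by
  have hδ₀ := H.pos
  have hc : IsCompact {z | z ∈ Z ∧ ¬ P (K z) (f z)} := by
    refine H.compact.of_isClosed_subset ?_ fun z hz => hz.1
    rw [← isOpen_compl_iff, isOpen_iff_mem_nhds]
    intro y hy
    by_cases hyZ : y ∈ Z
    · filter_upwards [ball_mem_nhds y H.pos] with z hz hzZ
      obtain ⟨e1, e2⟩ := H.const y hyZ z hzZ.1 (mem_ball.1 hz).le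
      exact hy ⟨hyZ, fun h => hzZ.2 (by rw [e1, e2]; exact h)⟩
    · filter_upwards [H.compact.isClosed.isOpen_compl.mem_nhds hyZ] with z hz hzZ
      exact hz hzZ.1
  have hd : Disjoint {z | z ∈ Z ∧ ¬ P (K z) (f z)} (closedBall x 1) := by
    rw [Set.disjoint_left]
    intro z hz hzS
    exact hz.2 (hP z hz.1 (mem_closedBall.1 hzS))
  obtain ⟨η, hη, hdis⟩ := hd.exists_thickenings hc isClosed_closedBall
  refine ⟨min (η / 2) (δ₀ / 2), lt_min (by linarith) (by linarith), min_le_right _ _, ?_⟩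
  rintro z hz ⟨y, hy, hyz⟩
  by_contra hcon
  have h1 : y ∈ thickening η {z | z ∈ Z ∧ ¬ P (K z) (f z)} := by
    rw [mem_thickening_iff]
    exact ⟨z, ⟨hz, hcon⟩, by have := hyz.trans (min_le_left _ _); linarith⟩
  have h2 : y ∈ thickening η (closedBall x 1) :=
    self_subset_thickening hη _ (mem_closedBall.2 hy)
  exact Set.disjoint_left.1 hdis h1 h2

/-- the state at an exceptional point `v` and a triple `{t, b, e}` with two colours of `v` -/
theorem lamH_rem (h : Irr U T) (hZ : Zs T Z c R) (hl : Hml T f (ball c (R + 1)))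
    (hcl : ∀ z ∈ Z, ∀ z' ∈ Z, dist z z' ≠ 1) (H : Hm T Z f δ₀) {v u u' : ℂ} {t b e : Fin 6}
    (hvc : dist v c ≤ R - 2) (htb : t ≠ b) (hte : t ≠ e) (hbe : b ≠ e) (htv : t ∈ T v)
    (heV : e ∉ T v) (huZ : u ∉ Z) (Fu : FaceT T u {t, b, e})
    (Fu' : FaceT T u' ({t, b, e} : Set (Fin 6))ᶜ) (hu : dist u v = 1) (hv : dist v u' = 1)
    (huv : u + u' = 2 * v) : lamH T Z f δ₀ t v {t, b, e} = 0 := by
  have hδ₀ := H.pos
  have huc : dist u c ≤ R - 1 := by
    have := dist_triangle u v c
    linarith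
  have hu'c : dist u' c ≤ R - 1 := by
    have := dist_triangle u' v c
    rw [dist_comm u' v] at this
    linarith
  have hTu : T u = {t, b, e} := Fu.fc.eq_of_three Fu.1 (hZ.three (by linarith) huZ)
  have hfs : (({t, b, e} : Finset (Fin 6)) : Set (Fin 6)) = {t, b, e} := by simp
  -- uniqueness of `u`
  have huniq : ∀ w, dist w v ≤ 1 → FaceT T w {t, b, e} → w = u := by
    intro w hw Fw
    have hwc : dist w c ≤ R - 1 := by
      have := dist_triangle w v c
      linarith
    have h2 := comp_T h hZ hl hcl hwc hu'c Fw Fu'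
    rw [l2_eq_antipode hv hw h2]
    linear_combination -huv
  -- scales
  obtain ⟨δ1, hδ1, hδ1', hP⟩ := H.scale_ball (x := v)
    (P := fun S F => ¬ (({t, b, e} : Set (Fin 6)) ⊆ S ∧ ¬ F ⊆ {t, b, e})) (by
      intro z hz hzv hcon
      have hzc : dist z c ≤ R := by
        have := dist_triangle z v c
        linarith
      have Fz : FaceT T z {t, b, e} := (face_iff h hZ hl hzc Fu.1).1 ⟨hcon.1, fun _ => hcon.2⟩
      exact huZ (huniq z hzv Fz ▸ hz))
  obtain ⟨δ2, hδ2, hfar⟩ : ∃ δ2 > 0, ∀ z ∈ Z, 2 * δ2 ≤ dist u z := by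
    obtain ⟨r, hr, hball⟩ := Metric.isOpen_iff.1 H.compact.isClosed.isOpen_compl u huZ
    refine ⟨r / 2, by linarith, fun z hz => ?_⟩
    by_contra hcon
    push Not at hcon
    exact hball (mem_ball.2 (by rw [dist_comm]; linarith) : z ∈ ball u r) hz
  obtain ⟨δ, hδ, hδa, hδb⟩ : ∃ δ > 0, δ ≤ δ1 ∧ δ ≤ δ2 :=
    ⟨min δ1 δ2, lt_min hδ1 hδ2, min_le_left _ _, min_le_right _ _⟩
  have hδ' : δ ≤ δ₀ / 2 := hδa.trans hδ1'
  have hr : Rg T Z v := hZ.rg (by linarith)
  have hav : Av T v t := av_T h htv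
  rw [← H.lam_eq hr hav hδ hδ' (H.av hav δ) (by simp)]
  have hsc := H.sc hδ hδ' {t}
  refine rem_zero h (u := u) (u' := u') (H.nice hr hδ hδ' {t}) (H.av hav δ) ?_ hte hbe Fu'.fc hv huv
    heV hTu.subset fun w hw hws => ?_
  · -- near `u` the apex cover is the palette
    filter_upwards [ball_mem_nhds u hδ] with w hw
    refine apx_far fun z hz => ?_
    have h1 := hfar z hz
    have h2 := dist_triangle u w z
    rw [dist_comm u w] at h2
    have h3 := mem_ball.1 hw
    linarith
  · have hw1 : dist w v ≤ 1 := mem_closedBall.1 hw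
    have hwc : dist w c ≤ R - 1 := by
      have := dist_triangle w v c
      linarith
    by_cases hn : ∃ z ∈ Z, dist w z ≤ δ
    · exfalso
      obtain ⟨z, hz, hwz⟩ := hn
      by_cases hwZ : w ∈ Z
      · have e1 := hsc.sub_Z hwZ (hws t (by simp))
        have e2 := hsc.sub_Z hwZ (hws b (by simp))
        exact htb ((show t = _ from e1).trans (show b = _ from e2).symm)
      · have hsub := hsc.sub hz hwz
        have hap := H.apex hz {t}
        have hTw : T w ⊆ T z := H.sub z hz w (by linarith)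
        refine hP z hz ⟨w, hw1, hwz.trans hδa⟩ ⟨fun i hi => ?_, fun hfz => ?_⟩
        · have hi' : i ∈ ({t, b, e} : Finset (Fin 6)) := by
            rw [← Finset.mem_coe, hfs]; exact hi
          rcases hsub (hws i hi') with h1 | h1
          · rw [h1]; exact hap.1
          · exact hTw h1
        · refine H.forb z hz w (by linarith) hwZ fun i hi => ?_
          have hi' : i ∈ ({t, b, e} : Finset (Fin 6)) := by
            rw [← Finset.mem_coe, hfs]; exact hfz hi
          rcases hsub (hws i hi') with h1 | h1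
          · exact absurd (h1 ▸ hi) hap.2
          · exact h1
    · push Not at hn
      have hwZ : w ∉ Z := fun hwZ => by
        have := hn w hwZ
        rw [dist_self] at this
        linarith
      have hTw : ({t, b, e} : Set (Fin 6)) ⊆ T w := by
        intro i hi
        have hi' : i ∈ ({t, b, e} : Finset (Fin 6)) := by
          rw [← Finset.mem_coe, hfs]; exact hi
        have := hws i hi'
        rwa [apx_far hn] at this
      have Fw : FaceT T w {t, b, e} := (face_iff h hZ hl (by linarith) Fu.1).1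
        ⟨hTw, fun hcon => absurd hcon hwZ⟩
      exact huniq w hw1 Fw

/-- **`lens0`** -/
theorem lens0_T (h : Irr U T) (hZ : Zs T Z c R) (hl : Hml T f (ball c (R + 1)))
    (hcl : ∀ z ∈ Z, ∀ z' ∈ Z, dist z z' ≠ 1) (H : Hm T Z f δ₀) {x u u' : ℂ} {t b e : Fin 6}
    (hxc : dist x c ≤ R - 2) (htb : t ≠ b) (hte : t ≠ e) (hbe : b ≠ e) {S : Set (Fin 6)}
    (FS : FaceT T x S) (hint : ({t, b, e} : Set (Fin 6)) ∩ S = {t})
    (Fu : FaceT T u {t, b, e}) (Fu' : FaceT T u' ({t, b, e} : Set (Fin 6))ᶜ) (hu : dist u x = 1)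
    (hu' : dist u' x = 1) (huu : dist u u' = 2)
    (hnot : ¬ ∀ᶠ w in 𝓝[closedBall x 1 \ {u}] u, t ∉ T w) : lamT T Z f δ₀ t x b e = 0 := by
  have hxu' : dist x u' = 1 := by rw [dist_comm]; exact hu'
  -- `x` is the midpoint
  have huv : u + u' = 2 * x := by
    have h1 : ‖(u - x) - (u' - x)‖ = 2 := by
      rw [sub_sub_sub_cancel_right, ← dist_eq_norm]
      exact huu
    have h2 : ‖u - x‖ = 1 := by rw [← dist_eq_norm]; exact hu
    have h3 : ‖u' - x‖ = 1 := by rw [← dist_eq_norm]; exact hu'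
    have h4 := parallelogram_law_with_norm ℝ (u - x) (u' - x)
    rw [h1, h2, h3] at h4
    have h5 : ‖(u - x) + (u' - x)‖ = 0 := by nlinarith [norm_nonneg ((u - x) + (u' - x))]
    have h6 := norm_eq_zero.1 h5
    linear_combination h6
  have htS : t ∈ S := by
    have : t ∈ ({t, b, e} : Set (Fin 6)) ∩ S := by rw [hint]; rfl
    exact this.2
  have htx : t ∈ T x := FS.2.1 htS
  have hbS : b ∉ S := fun hb => htb (by
    have : b ∈ ({t, b, e} : Set (Fin 6)) ∩ S := ⟨by simp, hb⟩
    rw [hint] at this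
    exact this.symm)
  have heS : e ∉ S := fun he => hte (by
    have : e ∈ ({t, b, e} : Set (Fin 6)) ∩ S := ⟨by simp, he⟩
    rw [hint] at this
    exact this.symm)
  -- one further colour at most
  have h4 := hZ.four_le hl (u := x) (by linarith)
  have hins : ∀ i, i ∉ S → i ∈ T x → x ∈ Z ∧ ∀ j, j ∉ S → j ∈ T x → j = i := by
    intro i hi hix
    have h5 : (insert i S).ncard = 4 := by
      rw [Set.ncard_insert_of_notMem hi (Set.toFinite _), FS.1]
    have h6 : insert i S = T x := by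
      refine Set.eq_of_subset_of_ncard_le (insert_subset hix FS.2.1) (by omega) (Set.toFinite _)
    constructor
    · by_contra hxZ
      have := hZ.three (u := x) (by linarith) hxZ
      rw [← h6] at this
      omega
    · intro j hj hjx
      rw [← h6] at hjx
      exact hjx.resolve_right hj
  by_cases hb : b ∈ T x
  · obtain ⟨hxZ, honly⟩ := hins b hbS hb
    rw [lamT_eq ⟨htb, hte, hbe⟩]
    exact lamH_rem h hZ hl hcl H hxc htb hte hbe htx (fun he => hbe (honly e heS he).symm)
      (fun huZ => hcl u huZ x hxZ hu) Fu Fu' hu hxu' huv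
  by_cases he : e ∈ T x
  · obtain ⟨hxZ, honly⟩ := hins e heS he
    rw [lamT_symm, lamT_eq ⟨hte, htb, hbe.symm⟩]
    have e1 : ({t, b, e} : Set (Fin 6)) = {t, e, b} := by rw [Set.pair_comm b e]
    rw [e1] at Fu Fu'
    exact lamH_rem h hZ hl hcl H hxc hte htb hbe.symm htx hb
      (fun huZ => hcl u huZ x hxZ hu) Fu Fu' hu hxu' huv
  · -- the ordinary lens lemma
    exfalso
    refine hnot (Fu'.fc.lens' h hxu' huv fun i hi => ?_)
    by_cases hit : i = t
    · exact Or.inl hit
    · refine Or.inr fun hi' => ?_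
      rcases hi' with h1 | h1 | h1
      · exact hit h1
      · exact hb (h1 ▸ hi)
      · exact he ((show i = e from h1) ▸ hi)

end Vale.Agent.P032.Carr
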