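import Vale.Agent.P032.S5.H678.RemU

/-!
# P032, carriers: the field `lens0` when harmless points may be at distance one
-/

open Set Filter Topology Metric

noncomputable section

namespace Vale.Agent.P032.Carr

open Vale.Agent.P032.S5 Vale.Agent.P032.Six

variable {U : Fin 6 → Set ℂ} {T : ℂ → Set (Fin 6)} {Z : Set ℂ} {f : ℂ → Set (Fin 6)}
  {c : ℂ} {R δ₀ : ℝ}

/-- the points of a unit circle near `p` -/
theorem sphere_param {u p : ℂ} (hp : dist p u = 1) {ε : ℝ} (hε : 0 < ε) :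
    ∀ᶠ q in 𝓝[sphere u 1] p, ∃ ψ : ℝ, |ψ| < ε ∧ q = u + (p - u) * cis ψ := by
  have hn : ‖p - u‖ = 1 := by rw [← dist_eq_norm]; exact hp
  have hn0 : p - u ≠ 0 := by
    intro h0
    rw [h0, norm_zero] at hn
    exact zero_ne_one hn
  have hc : ContinuousAt (fun q : ℂ => Complex.arg ((q - u) / (p - u))) p := by
    have h1 : ContinuousAt Complex.arg ((p - u) / (p - u)) := by
      rw [div_self hn0]
      exact Complex.continuousAt_arg Complex.one_mem_slitPlane
    have h2 : ContinuousAt (fun q : ℂ => (q - u) / (p - u)) p := by fun_prop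
    exact ContinuousAt.comp (f := fun q : ℂ => (q - u) / (p - u)) (g := Complex.arg) h1 h2
  have h0 : Complex.arg ((p - u) / (p - u)) = 0 := by rw [div_self hn0, Complex.arg_one]
  have h3 := hc.eventually (ball_mem_nhds _ hε)
  filter_upwards [mem_nhdsWithin_of_mem_nhds h3, self_mem_nhdsWithin] with q h4 h5
  have h5 : dist q u = 1 := h5
  rw [h0, Real.dist_eq, sub_zero] at h4
  refine ⟨_, h4, ?_⟩
  have h6 : ‖(q - u) / (p - u)‖ = 1 := by
    rw [norm_div, hn, ← dist_eq_norm, h5]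
    norm_num
  have h7 := Complex.norm_mul_exp_arg_mul_I ((q - u) / (p - u))
  rw [h6, Complex.ofReal_one, one_mul] at h7
  unfold cis
  rw [h7]
  field_simp
  ring

theorem cis_add (s t : ℝ) : cis (s + t) = cis s * cis t := by
  unfold cis
  rw [← Complex.exp_add]
  congr 1
  push_cast
  ring

/-- the state, if `e` is not a forbidden colour of `u` -/
theorem lens_B12 (h : Irr U T) (hZ : Zs T Z c R) (hl : Hml T f (ball c (R + 1)))
    (H : Hm T Z f δ₀) {x u u' : ℂ} {t b e : Fin 6} (hxc : dist x c ≤ R - 2)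
    (htb : t ≠ b) (hte : t ≠ e) (hbe : b ≠ e) (htx : t ∈ T x) (hex : e ∉ T x)
    (huniq : ∀ w, dist w x ≤ 1 → FaceT T w {t, b, e} → w = u)
    (Fu : FaceT T u {t, b, e}) (Fu' : FaceT T u' ({t, b, e} : Set (Fin 6))ᶜ)
    (hu : dist u x = 1) (hv : dist x u' = 1) (huv : u + u' = 2 * x)
    (hef : u ∈ Z → e ∉ f u) : lamH T Z f δ₀ t x {t, b, e} = 0 := by
  classical
  have hδ₀ := H.pos
  have huc : dist u c ≤ R - 1 := by
    have := dist_triangle u x c
    linarith
  have heu : e ∈ T u := Fu.2.1 (by simp)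
  -- the apexes
  obtain ⟨g, hg⟩ : ∃ g : ℂ → Fin 6, g = fun z => if e ∈ T z ∧ e ∉ f z then e else hp T f {t} z :=
    ⟨_, rfl⟩
  have hge : ∀ z, e ∈ T z ∧ e ∉ f z → g z = e := fun z hz => by rw [hg]; exact if_pos hz
  have hgn : ∀ z, ¬ (e ∈ T z ∧ e ∉ f z) → g z = hp T f {t} z := fun z hz => by
    rw [hg]; exact if_neg hz
  have G : Ap T Z f δ₀ g := by
    refine ⟨fun z hz => ?_, fun z hz z' hz' hd => ?_⟩
    · by_cases he : e ∈ T z ∧ e ∉ f z
      · rw [hge z he]; exact he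
      · rw [hgn z he]; exact H.apex hz {t}
    · obtain ⟨e1, e2⟩ := H.const z' hz' z hz hd
      by_cases he : e ∈ T z ∧ e ∉ f z
      · rw [hge z he, hge z' (by rw [← e1, ← e2]; exact he)]
      · rw [hgn z he, hgn z' (by rw [← e1, ← e2]; exact he), H.hp_const hz hz' hd]
  have hgt : ∀ z ∈ Z, g z ≠ t := by
    intro z hz
    by_cases he : e ∈ T z ∧ e ∉ f z
    · rw [hge z he]; exact hte.symm
    · rw [hgn z he]; exact H.avoid hz t
  -- near `u`
  obtain ⟨ε, hε, hεu⟩ : ∃ ε > 0, ∀ δ > 0, δ ≤ ε → δ ≤ δ₀ / 2 → ∀ w, dist w u < ε →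
      apx T Z δ g w ⊆ insert e (T w) ∧ (insert e (apx T Z δ g w)).ncard ≤ 3 := by
    by_cases huZ : u ∈ Z
    · have hef := hef huZ
      refine ⟨δ₀ / 2, by linarith, fun δ hδ _ hδ' w hw => ?_⟩
      have S := G.sc H hδ hδ'
      by_cases hwZ : w ∈ Z
      · have h1 : g w = e := by
          rw [G.loc w hwZ u huZ (by linarith), hge u ⟨heu, hef⟩]
        have h2 := S.sub_Z hwZ
        rw [h1] at h2
        refine ⟨h2.trans (by simp), ?_⟩
        have h3 : insert e (apx T Z δ g w) ⊆ {e} := insert_subset (by simp) h2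
        have h4 := Set.ncard_le_ncard h3 (Set.toFinite _)
        rw [Set.ncard_singleton] at h4
        omega
      · have h1 : apx T Z δ g w ⊆ insert e (T w) := by
          by_cases hn : ∃ z ∈ Z, dist w z ≤ δ
          · obtain ⟨z, hz, hwz⟩ := hn
            have h2 : g z = e := by
              rw [G.loc z hz u huZ (by
                have := dist_triangle_left z u w
                linarith), hge u ⟨heu, hef⟩]
            have h3 := S.sub hz hwz
            rwa [h2] at h3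
          · push Not at hn
            rw [apx_far hn]
            exact subset_insert _ _
        refine ⟨h1, H.faceU huZ (by linarith) hwZ fun i hi => ?_⟩
        have h5 : i ∈ insert e (T w) := by
          rcases hi with h4 | h4
          · exact Or.inl h4
          · exact h1 h4
        rcases h5 with h4 | h4
        · right
          rw [show i = e from h4]
          exact ⟨heu, hef⟩
        · exact Or.inl h4
    · have hTu : T u = {t, b, e} := Fu.fc.eq_of_three Fu.1 (hZ.three (by linarith) huZ)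
      obtain ⟨r, hr, hball⟩ := Metric.isOpen_iff.1 H.compact.isClosed.isOpen_compl u huZ
      obtain ⟨ρ, hρ, hρT⟩ := Metric.eventually_nhds_iff.1 (h.nhd u)
      refine ⟨min (r / 2) ρ, lt_min (by linarith) hρ, fun δ hδ hδa _ w hw => ?_⟩
      obtain ⟨w1, w2⟩ := lt_min_iff.1 hw
      have hδr : δ ≤ r / 2 := hδa.trans (min_le_left _ _)
      have h1 : apx T Z δ g w = T w := by
        refine apx_far fun z hz => ?_
        by_contra hcon
        push Not at hcon
        refine hball (mem_ball.2 ?_ : z ∈ ball u r) hz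
        have := dist_triangle_left z u w
        linarith
      rw [h1]
      refine ⟨subset_insert _ _, ?_⟩
      have h2 : insert e (T w) ⊆ {t, b, e} := insert_subset (by simp) (by
        rw [← hTu]; exact hρT w2)
      exact (Set.ncard_le_ncard h2 (Set.toFinite _)).trans Fu.1.le
  obtain ⟨ε', hε', key⟩ := rem_zero2 h hte hbe Fu'.fc hv huv hex hε
  obtain ⟨δ1, hδ1, hnear⟩ := near_u hZ h hl H hxc htb Fu.1 huniq hε'
  obtain ⟨δ, hδ, hδa, hδb, hδ'⟩ : ∃ δ > 0, δ ≤ δ1 ∧ δ ≤ ε ∧ δ ≤ δ₀ / 2 :=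
    ⟨min δ1 (min ε (δ₀ / 2)), lt_min hδ1 (lt_min hε (by linarith)), min_le_left _ _,
      (min_le_right _ _).trans (min_le_left _ _), (min_le_right _ _).trans (min_le_right _ _)⟩
  have hr : Rg T Z x := hZ.rg (by linarith)
  have hav : Av T x t := av_T h htx
  have hA : Av (apx T Z δ g) x t := Av_apx hav fun z hz _ => hgt z hz
  rw [← G.lam_eq H hδ hδ' hr hav hA (by simp)]
  exact key _ ((G.sc H hδ hδ').nice H.compact H.usc H.ne hr) hA (hεu δ hδ hδb hδ')
    fun w hw hws => hnear δ hδ hδa hδ' g G w hw hws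

/-- the state, if `e` is a forbidden colour of `u` -/
theorem lens_B3 (h : Irr U T) (hZ : Zs T Z c R) (hl : Hml T f (ball c (R + 1)))
    (hup : Up T Z f) (H : Hm T Z f δ₀) {x u u' : ℂ} {t b e : Fin 6} (hxc : dist x c ≤ R - 2)
    (htb : t ≠ b) (hte : t ≠ e) (hbe : b ≠ e) (htx : t ∈ T x) (hbx : b ∈ T x) (hex : e ∉ T x)
    (hxZ : x ∈ Z) (huZ : u ∈ Z)
    (huniq : ∀ w, dist w x ≤ 1 → FaceT T w {t, b, e} → w = u)
    (Fu : FaceT T u {t, b, e}) (Fu' : FaceT T u' ({t, b, e} : Set (Fin 6))ᶜ)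
    (hu : dist u x = 1) (hv : dist x u' = 1) (huv : u + u' = 2 * x)
    (hef : e ∈ f u) : lamH T Z f δ₀ t x {t, b, e} = 0 := by
  classical
  have hδ₀ := H.pos
  have hu'c : dist u' c ≤ R - 1 := by
    have := dist_triangle u' x c
    rw [dist_comm u' x] at this
    linarith
  -- the pairs
  obtain ⟨m, hmf, hms⟩ : ∃ m ∈ f u, m ∉ ({t, b, e} : Set (Fin 6)) := by
    obtain ⟨y, hy, hyf⟩ := hl.h2 u (hZ.sub huZ) (hZ.four u huZ)
    have := Fu.2.2 y hy
    rw [hyf] at this
    exact Set.not_subset.1 this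
  have hfu2 : f u = {e, m} := ncard_two_eq (H.two u huZ) hef hmf fun hem => hms (by rw [← hem]; simp)
  have htf : t ∉ f u := by
    rw [hfu2]
    rintro (h1 | h1)
    · exact hte h1
    · exact hms (by rw [← (show t = m from h1)]; simp)
  have hbf : b ∉ f u := by
    rw [hfu2]
    rintro (h1 | h1)
    · exact hbe h1
    · exact hms (by rw [← (show b = m from h1)]; simp)
  have hC : T u \ f u = {t, b} := ncard_two_eq (H.card_diff huZ) ⟨Fu.2.1 (by simp), htf⟩
    ⟨Fu.2.1 (by simp), hbf⟩ htb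
  have hfx : f x = {t, b} := by
    rw [← hC]
    refine (hup u huZ x hxZ hu ?_).symm
    rw [hC]
    rintro i (h1 | h1)
    · rw [h1]; exact htx
    · rw [show i = b from h1]; exact hbx
  have hCx : T x \ f x ⊆ ({t, b, e} : Set (Fin 6))ᶜ := by
    rintro i ⟨hi, hif⟩ hi'
    rw [hfx] at hif
    rcases hi' with h1 | h1 | h1
    · exact hif (Or.inl h1)
    · exact hif (Or.inr h1)
    · exact hex (by rw [← (show i = e from h1)]; exact hi)
  have hcx2 := H.card_diff hxZ
  have hu'Z : u' ∉ Z := by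
    intro hu'Z
    have e1 : T x \ f x = f u' := hup x hxZ u' hu'Z hv (hCx.trans Fu'.2.1)
    obtain ⟨y, hy, hyf⟩ := hl.h2 u' (hZ.sub hu'Z) (hZ.four u' hu'Z)
    exact Fu'.2.2 y hy (by rw [hyf, ← e1]; exact hCx)
  have hTu' : T u' = ({t, b, e} : Set (Fin 6))ᶜ :=
    Fu'.fc.eq_of_three Fu'.1 (hZ.three (by linarith) hu'Z)
  obtain ⟨k, hk⟩ := Set.ncard_eq_one.1
    (show ((({t, b, e} : Set (Fin 6))ᶜ) \ (T x \ f x)).ncard = 1 by
      rw [Set.ncard_sdiff hCx (Set.toFinite _), Fu'.1, hcx2])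
  have hins : ∀ i ∈ T u', i ≠ k → i ∈ T x \ f x := by
    intro i hi hik
    by_contra hcon
    have h1 : i ∈ (({t, b, e} : Set (Fin 6))ᶜ) \ (T x \ f x) := ⟨hTu' ▸ hi, hcon⟩
    rw [hk] at h1
    exact hik h1
  have htu' : t ∉ T u' := by
    rw [hTu']
    exact fun h1 => h1 (by simp)
  -- no exceptional point on the circle about `u'` near `x`
  have hg : ∀ z ∈ Z, T z = T x → f z = f x → ∀ᶠ w in 𝓝[sphere z 1] u', k ∈ T w := by
    intro z hz e1 e2
    filter_upwards [mem_nhdsWithin_of_mem_nhds (h.nhd u'), self_mem_nhdsWithin] with w h1 h2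
    by_contra hkw
    have h3 : T w ⊆ T z := fun i hi => by
      rw [e1]
      exact (hins i (h1 hi) fun hik => hkw (hik ▸ hi)).1
    have h4 := hl.h1 z (hZ.sub hz) (hZ.four z hz) w h2 h3
    exact htu' (h1 (h4 (by rw [e2, hfx]; simp)))
  obtain ⟨i0, hi0⟩ := Set.nonempty_of_ncard_ne_zero (s := T x \ f x) (by rw [hcx2]; omega)
  have hX : u' ∈ XX U := h.mem_XX (y := x) (by rw [dist_comm]; exact hv)
    (Fu'.2.1 (hCx hi0)) (h.sub x hi0.1)
  obtain ⟨y0, hy0, hky0⟩ := h.partner_XX hX k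
  have hpl : ∀ z ∈ Z, T z = T x → f z = f x → dist z u' = 1 → y0 = z ∨ y0 + z = 2 * u' :=
    fun z hz e1 e2 hzu => h.mx.partner_line (u := z) (p := u') (t := k)
      (by rw [dist_comm]; exact hzu) ((hg z hz e1 e2).mono fun w hw => h.sub w hw) hy0 hky0
  have hnoZ : ∀ z ∈ Z, T z = T x → f z = f x → dist z u' = 1 → z ≠ x → dist z x < 1 → False := by
    intro z hz e1 e2 hzu hzx hd
    have hne2 : z + x ≠ 2 * u' := by
      intro h0
      have h1 : dist z x = 2 := by
        rw [dist_eq_norm, show z - x = 2 * (u' - x) by linear_combination h0, norm_mul,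
          ← dist_eq_norm, dist_comm u' x, hv]
        simp
      linarith
    rcases hpl z hz e1 e2 hzu with h1 | h1 <;> rcases hpl x hxZ rfl rfl hv with h2 | h2
    · exact hzx (h1.symm.trans h2)
    · rw [h1] at h2
      exact hne2 h2
    · rw [h2] at h1
      exact hne2 (by rw [add_comm]; exact h1)
    · exact hzx (by linear_combination h1 - h2)
  -- the arc
  have hn : ‖x - u'‖ = 1 := by rw [← dist_eq_norm]; exact hv
  obtain ⟨y, hy⟩ : ∃ y : ℝ → ℂ, ∀ φ, y φ = u' + (x - u') * cis φ := ⟨_, fun _ => rfl⟩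
  have hyc : Continuous y := by
    have h1 := continuous_cis
    rw [show y = fun φ => u' + (x - u') * cis φ from funext hy]
    fun_prop
  have hyx : y 0 = x := by
    rw [hy]
    unfold cis
    simp
  have hyd : ∀ φ, dist (y φ) u' = 1 := fun φ => by
    rw [dist_eq_norm, hy, add_sub_cancel_left, norm_mul, hn, norm_cis, one_mul]
  have hyim : ∀ φ, ((y φ - u') * (starRingEnd ℂ) (x - u')).im = Real.sin φ := by
    intro φ
    have : (y φ - u') * (starRingEnd ℂ) (x - u') = cis φ := by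
      rw [hy]
      calc _ = ((x - u') * (starRingEnd ℂ) (x - u')) * cis φ := by ring
        _ = cis φ := by rw [mul_conj_one hn, one_mul]
    rw [this, cis, Complex.exp_ofReal_mul_I_im]
  obtain ⟨φ0, hφ0, hφ1, hyb⟩ : ∃ φ0 > 0, φ0 ≤ 1 ∧ ∀ φ, |φ| < φ0 → dist (y φ) x < min δ₀ 1 := by
    have h1 := hyc.tendsto 0
    rw [hyx] at h1
    obtain ⟨r, hr, hball⟩ := Metric.eventually_nhds_iff.1
      (h1.eventually (ball_mem_nhds x (lt_min hδ₀ one_pos)))
    refine ⟨min r 1, lt_min hr one_pos, min_le_right _ _, fun φ hφ => ?_⟩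
    refine mem_ball.1 (hball (y := φ) ?_)
    rw [Real.dist_eq, sub_zero]
    exact lt_of_lt_of_le hφ (min_le_left _ _)
  have hsin : ∀ φ, |φ| < φ0 → φ ≠ 0 → Real.sin φ ≠ 0 := by
    intro φ hφ hne h0
    have h1 := Real.pi_gt_three
    have h2 := abs_lt.1 hφ
    rw [Real.sin_eq_zero_iff_of_lt_of_lt (by linarith) (by linarith)] at h0
    exact hne h0
  have hone : ∀ φ, |φ| < φ0 → φ ≠ 0 →
      (t ∈ T (y φ) ∨ b ∈ T (y φ)) ∧ ¬ (t ∈ T (y φ) ∧ b ∈ T (y φ)) := by
    intro φ hφ hne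
    obtain ⟨d1, d2⟩ := lt_min_iff.1 (hyb φ hφ)
    have hsub : T (y φ) ⊆ T x := H.sub x hxZ _ d1.le
    constructor
    · by_contra hcon
      push Not at hcon
      refine Fu'.2.2 (y φ) (hyd φ) fun i hi hi' => ?_
      rcases hi' with h1 | h1 | h1
      · exact hcon.1 (h1 ▸ hi)
      · exact hcon.2 (h1 ▸ hi)
      · exact hex (hsub ((show i = e from h1) ▸ hi))
    · rintro ⟨h1, h2⟩
      have hyZ : y φ ∉ Z := by
        intro hyZ
        obtain ⟨e1, e2⟩ := H.const x hxZ _ hyZ d1.le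
        refine hnoZ _ hyZ e1 e2 (hyd φ) (fun h3 => ?_) d2
        have h4 := hyim φ
        rw [h3, mul_conj_one hn, Complex.one_im] at h4
        exact hsin φ hφ hne h4.symm
      refine H.forb x hxZ _ d1.le hyZ ?_
      rw [hfx]
      rintro i (h3 | h3)
      · rw [h3]; exact h1
      · rw [show i = b from h3]; exact h2
  have hcl : ∀ (i : Fin 6) (τ : ℝ), IsClosed {φ : ℝ | i ∈ T (y (τ * φ))} := by
    intro i τ
    have h1 : Continuous fun φ : ℝ => y (τ * φ) := hyc.comp (by fun_prop)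
    exact (h.closed i).preimage h1
  have habs : ∀ τ : ℝ, τ = 1 ∨ τ = -1 → ∀ φ, 0 < φ → φ < φ0 → |τ * φ| < φ0 ∧ τ * φ ≠ 0 := by
    rintro τ (rfl | rfl) φ h1 h2
    · rw [one_mul, abs_of_pos h1]
      exact ⟨h2, h1.ne'⟩
    · rw [neg_one_mul, abs_neg, abs_of_pos h1]
      exact ⟨h2, neg_ne_zero.2 h1.ne'⟩
  have hhalf : ∀ τ : ℝ, τ = 1 ∨ τ = -1 → (∀ φ, 0 < φ → φ < φ0 → t ∈ T (y (τ * φ))) ∨
      (∀ φ, 0 < φ → φ < φ0 → b ∈ T (y (τ * φ))) := by
    intro τ hτ
    by_contra hcon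
    push Not at hcon
    obtain ⟨⟨φa, a1, a2, a3⟩, ⟨φb, b1, b2, b3⟩⟩ := hcon
    have hpre := isPreconnected_closed_iff.1 (isPreconnected_Ioo (a := (0 : ℝ)) (b := φ0))
      _ _ (hcl t τ) (hcl b τ) (fun φ hφ => by
        obtain ⟨g1, g2⟩ := habs τ hτ φ hφ.1 hφ.2
        exact (hone _ g1 g2).1) ⟨φb, ⟨b1, b2⟩, by
          obtain ⟨g1, g2⟩ := habs τ hτ φb b1 b2
          exact (hone _ g1 g2).1.resolve_right b3⟩ ⟨φa, ⟨a1, a2⟩, by
          obtain ⟨g1, g2⟩ := habs τ hτ φa a1 a2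
          exact (hone _ g1 g2).1.resolve_left a3⟩
    obtain ⟨φ, ⟨g1, g2⟩, g3, g4⟩ := hpre
    obtain ⟨g5, g6⟩ := habs τ hτ φ g1 g2
    exact (hone _ g5 g6).2 ⟨g3, g4⟩
  have hnotb : ¬ ((∀ φ, 0 < φ → φ < φ0 → b ∈ T (y (1 * φ))) ∧
      (∀ φ, 0 < φ → φ < φ0 → b ∈ T (y (-1 * φ)))) := by
    rintro ⟨h1, h2⟩
    have h3 : ∀ᶠ q in 𝓝[sphere u' 1] x, b ∈ T q := by
      filter_upwards [sphere_param hv hφ0] with q hq
      obtain ⟨ψ, hψ, hqψ⟩ := hq
      rw [← hy] at hqψ
      rw [hqψ]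
      rcases lt_trichotomy ψ 0 with h4 | h4 | h4
      · have := h2 (-ψ) (by linarith) (by rwa [abs_of_neg h4] at hψ)
        rwa [neg_one_mul, neg_neg] at this
      · rw [h4, hyx]; exact hbx
      · have := h1 ψ h4 (by rwa [abs_of_pos h4] at hψ)
        rwa [one_mul] at this
    obtain ⟨w, hw, hwf⟩ := hl.h2 x (hZ.sub hxZ) (hZ.four x hxZ)
    rcases h.mx.partner_line (u := u') (p := x) (t := b) hv (h3.mono fun q hq => h.sub q hq)
      (v := w) (by rw [dist_comm]; exact hw) (h.sub w (by rw [hwf, hfx]; simp)) with h5 | h5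
    · refine htu' ?_
      rw [← h5, hwf, hfx]
      simp
    · have h6 : w = u := by linear_combination h5 - huv
      have h7 := H.four u huZ
      rw [← h6, hwf, H.two x hxZ] at h7
      omega
  obtain ⟨τ, hτ, hτt⟩ : ∃ τ : ℝ, (τ = 1 ∨ τ = -1) ∧
      ∀ φ, 0 < φ → φ < φ0 → t ∈ T (y (τ * φ)) := by
    rcases hhalf 1 (Or.inl rfl) with h1 | h1
    · exact ⟨1, Or.inl rfl, h1⟩
    · rcases hhalf (-1) (Or.inr rfl) with h2 | h2
      · exact ⟨-1, Or.inr rfl, h2⟩
      · exact absurd ⟨h1, h2⟩ hnotb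
  have hττ : τ * τ = 1 := by rcases hτ with rfl | rfl <;> norm_num
  -- the colour `t` near `u`
  obtain ⟨ε, hε, hεt⟩ : ∃ ε > 0, ∀ w, dist w u < ε → dist w x < 1 → t ∉ T w := by
    obtain ⟨g1, g2⟩ := habs τ hτ (φ0 / 2) (by linarith) (by linarith)
    have hfar : 1 < dist u (y (τ * (φ0 / 2))) := u_far hv huv (by
      rw [hyim]; exact hsin _ g1 g2) (hyd _)
    refine ⟨min 1 (dist u (y (τ * (φ0 / 2))) - 1), lt_min one_pos (by linarith),
      fun w hw hwx htw => ?_⟩
    obtain ⟨w1, w2⟩ := lt_min_iff.1 hw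
    have hw3 : 1 < dist w (y (τ * (φ0 / 2))) := by
      have := dist_triangle_left u (y (τ * (φ0 / 2))) w
      linarith
    have hcont : Continuous fun φ : ℝ => dist w (y (τ * φ)) :=
      continuous_const.dist (hyc.comp (by fun_prop))
    obtain ⟨φ, ⟨hφa, hφb⟩, hφ⟩ := intermediate_value_Ioo (a := (0 : ℝ)) (b := φ0 / 2)
      (by linarith) (f := fun φ : ℝ => dist w (y (τ * φ))) hcont.continuousOn
      (show (1 : ℝ) ∈ Ioo _ _ from ⟨by
        show dist w (y (τ * 0)) < 1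
        rw [mul_zero, hyx]; exact hwx, hw3⟩)
    have hφ : dist w (y (τ * φ)) = 1 := hφ
    have harc : ∀ᶠ q in 𝓝[sphere u' 1] (y (τ * φ)), t ∈ T q := by
      filter_upwards [sphere_param (hyd (τ * φ)) (ε := min φ (φ0 - φ))
        (lt_min hφa (by linarith))] with q hq
      obtain ⟨ψ, hψ, hqψ⟩ := hq
      obtain ⟨k1, k2⟩ := lt_min_iff.1 hψ
      have e1 : q = y (τ * (φ + τ * ψ)) := by
        rw [hqψ, hy, hy, show τ * (φ + τ * ψ) = τ * φ + ψ by
          rw [mul_add, ← mul_assoc, hττ, one_mul], cis_add]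
        ring
      have k3 : |τ * ψ| = |ψ| := by
        rcases hτ with rfl | rfl
        · rw [one_mul]
        · rw [neg_one_mul, abs_neg]
      have k4 := neg_abs_le (τ * ψ)
      have k5 := le_abs_self (τ * ψ)
      rw [e1]
      exact hτt _ (by linarith) (by linarith)
    obtain ⟨g3, g4⟩ := habs τ hτ φ hφa (by linarith)
    exact region_ne hv huv (q := y (τ * φ)) (w := w) (by rw [hyim]; exact hsin _ g3 g4) (hyd _)
      hwx.le w1.le (h.mx.partner_line (u := u') (p := y (τ * φ)) (t := t) (hyd _)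
        (harc.mono fun q hq => h.sub q hq) (v := w) (by rw [dist_comm]; exact hφ) (h.sub w htw))
  -- the state
  obtain ⟨δ1, hδ1, hnear⟩ := near_u hZ h hl H hxc htb Fu.1 huniq hε
  obtain ⟨δ, hδ, hδa, hδ'⟩ : ∃ δ > 0, δ ≤ δ1 ∧ δ ≤ δ₀ / 2 :=
    ⟨min δ1 (δ₀ / 2), lt_min hδ1 (by linarith), min_le_left _ _, min_le_right _ _⟩
  have hr : Rg T Z x := hZ.rg (by linarith)
  have hav : Av T x t := av_T h htx
  rw [← H.lam_eq hr hav hδ hδ' (H.av hav δ) (by simp)]
  have hN := H.nice hr hδ hδ' {t}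
  have hA := H.av hav δ
  have hKT : ∀ w, t ∉ T w → t ∉ apx T Z δ (hp T f {t}) w := by
    rintro w hw (⟨h1, -⟩ | ⟨z, hz, -, h2⟩)
    · exact hw h1
    · exact H.avoid hz t h2
  have hnear := hnear δ hδ hδa hδ' _ (H.ap {t})
  generalize apx T Z δ (hp T f {t}) = K at *
  obtain ⟨K', hK'⟩ : ∃ K' : ℂ → Set (Fin 6), K' = fun w => if dist w u < ε then K w \ {t} else K w :=
    ⟨_, rfl⟩
  have hKp : ∀ w, dist w u < ε → K' w = K w \ {t} := fun w hw => by rw [hK']; exact if_pos hw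
  have hKn : ∀ w, ¬ dist w u < ε → K' w = K w := fun w hw => by rw [hK']; exact if_neg hw
  have hsub : ∀ w, K' w ⊆ K w := by
    intro w
    by_cases hw : dist w u < ε
    · rw [hKp w hw]; exact sdiff_subset
    · rw [hKn w hw]
  refine lamS_zero_of_sub hN hA (by simp) (K' := K') (fun w _ => hsub w) ?_ ?_ ?_
  · intro p _
    by_cases hp : dist p u < ε
    · have o : IsOpen {w : ℂ | dist w u < ε} := isOpen_lt (by fun_prop) continuous_const
      filter_upwards [mem_nhdsWithin_of_mem_nhds (hN.usc p),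
        mem_nhdsWithin_of_mem_nhds (o.mem_nhds hp)] with w h1 h2
      rw [hKp p hp, hKp w h2]
      exact sdiff_subset_sdiff_left h1
    · rw [hKn p hp]
      filter_upwards [mem_nhdsWithin_of_mem_nhds (hN.usc p)] with w h1
      exact (hsub w).trans h1
  · intro w hw
    by_cases hd : dist w x = 1
    · obtain ⟨i, hi, hit⟩ := hA w hd
      refine ⟨i, ?_, fun _ => hit⟩
      by_cases hwu : dist w u < ε
      · rw [hKp w hwu]; exact ⟨hi, hit⟩
      · rw [hKn w hwu]; exact hi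
    · obtain ⟨i, hi⟩ := hN.ne w
      refine ⟨i, ?_, fun h1 => absurd h1 hd⟩
      by_cases hwu : dist w u < ε
      · rw [hKp w hwu]
        refine ⟨hi, fun hit => ?_⟩
        have hit : i = t := hit
        rw [hit] at hi
        exact hKT w (hεt w hwu (lt_of_le_of_ne (mem_closedBall.1 hw) hd)) hi
      · rw [hKn w hwu]; exact hi
  · intro w hw
    by_cases hwu : dist w u < ε
    · exact ⟨t, by simp, by rw [hKp w hwu]; exact fun h1 => h1.2 rfl⟩
    · rw [hKn w hwu]
      by_contra hcon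
      push Not at hcon
      refine hwu (hnear w (mem_closedBall.1 hw) fun i hi => hcon i ?_)
      simp only [Finset.mem_insert, Finset.mem_singleton]
      exact hi

/-- the state at an exceptional point with two colours of `{t, b, e}` -/
theorem lens_B (h : Irr U T) (hmin : MinF U T) (hZ : Zs T Z c R) (hl : Hml T f (ball c (R + 1)))
    (hup : Up T Z f) (H : Hm T Z f δ₀) {x u u' : ℂ} {t b e : Fin 6} (hxc : dist x c ≤ R - 2)
    (htb : t ≠ b) (hte : t ≠ e) (hbe : b ≠ e) (htx : t ∈ T x) (hbx : b ∈ T x) (hex : e ∉ T x)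
    (hxZ : x ∈ Z) (Fu : FaceT T u {t, b, e}) (Fu' : FaceT T u' ({t, b, e} : Set (Fin 6))ᶜ)
    (hu : dist u x = 1) (hv : dist x u' = 1) (huv : u + u' = 2 * x) :
    lamH T Z f δ₀ t x {t, b, e} = 0 := by
  have hu'c : dist u' c ≤ R - 1 := by
    have := dist_triangle u' x c
    rw [dist_comm u' x] at this
    linarith
  have huniq : ∀ w, dist w x ≤ 1 → FaceT T w {t, b, e} → w = u := by
    intro w hw Fw
    have hwc : dist w c ≤ R - 1 := by
      have := dist_triangle w x c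
      linarith
    have h2 := comp_U h hmin hZ hl hup hwc hu'c Fw Fu'
    rw [l2_eq_antipode hv hw h2]
    linear_combination -huv
  by_cases hcase : u ∈ Z ∧ e ∈ f u
  · exact lens_B3 h hZ hl hup H hxc htb hte hbe htx hbx hex hxZ hcase.1 huniq Fu Fu' hu hv huv
      hcase.2
  · exact lens_B12 h hZ hl H hxc htb hte hbe htx hex huniq Fu Fu' hu hv huv
      fun huZ hef => hcase ⟨huZ, hef⟩

/-- **`lens0`**, unit pairs in `Z` allowed -/
theorem lens0_U (h : Irr U T) (hmin : MinF U T) (hZ : Zs T Z c R)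
    (hl : Hml T f (ball c (R + 1))) (hup : Up T Z f) (H : Hm T Z f δ₀) {x u u' : ℂ}
    {t b e : Fin 6} (hxc : dist x c ≤ R - 2) (htb : t ≠ b) (hte : t ≠ e) (hbe : b ≠ e)
    {S : Set (Fin 6)} (FS : FaceT T x S) (hint : ({t, b, e} : Set (Fin 6)) ∩ S = {t})
    (Fu : FaceT T u {t, b, e}) (Fu' : FaceT T u' ({t, b, e} : Set (Fin 6))ᶜ) (hu : dist u x = 1)
    (hu' : dist u' x = 1) (huu : dist u u' = 2)
    (hnot : ¬ ∀ᶠ w in 𝓝[closedBall x 1 \ {u}] u, t ∉ T w) : lamT T Z f δ₀ t x b e = 0 := by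
  have hxu' : dist x u' = 1 := by rw [dist_comm]; exact hu'
  have huv : u + u' = 2 * x := by
    have h1 : ‖(u - x) - (u' - x)‖ = 2 := by
      rw [sub_sub_sub_cancel_right, ← dist_eq_norm]
      exact huu
    have h2 : ‖u - x‖ = 1 := by rw [← dist_eq_norm]; exact hu
    have h3 : ‖u' - x‖ = 1 := by rw [← dist_eq_norm]; exact hu'
    have h4 := parallelogram_law_with_norm ℝ (u - x) (u' - x)
    rw [h1, h2, h3] at h4
    have h5 : ‖(u - x) + (u' - x)‖ = 0 := by nlinarith [norm_nonneg ((u - x) + (u' - x))]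
    have h6 := norm_eq_zero.1 h5
    linear_combination h6
  have htS : t ∈ S := by
    have : t ∈ ({t, b, e} : Set (Fin 6)) ∩ S := by rw [hint]; rfl
    exact this.2
  have htx : t ∈ T x := FS.2.1 htS
  have hbS : b ∉ S := fun hb => htb (by
    have : b ∈ ({t, b, e} : Set (Fin 6)) ∩ S := ⟨by simp, hb⟩
    rw [hint] at this
    exact this.symm)
  have heS : e ∉ S := fun he => hte (by
    have : e ∈ ({t, b, e} : Set (Fin 6)) ∩ S := ⟨by simp, he⟩
    rw [hint] at this
    exact this.symm)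
  -- one further colour at most
  have h4 := hZ.four_le hl (u := x) (by linarith)
  have hins : ∀ i, i ∉ S → i ∈ T x → x ∈ Z ∧ ∀ j, j ∉ S → j ∈ T x → j = i := by
    intro i hi hix
    have h5 : (insert i S).ncard = 4 := by
      rw [Set.ncard_insert_of_notMem hi (Set.toFinite _), FS.1]
    have h6 : insert i S = T x := by
      refine Set.eq_of_subset_of_ncard_le (insert_subset hix FS.2.1) (by omega) (Set.toFinite _)
    constructor
    · by_contra hxZ
      have := hZ.three (u := x) (by linarith) hxZ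
      rw [← h6] at this
      omega
    · intro j hj hjx
      rw [← h6] at hjx
      exact hjx.resolve_right hj
  by_cases hb : b ∈ T x
  · obtain ⟨hxZ, honly⟩ := hins b hbS hb
    rw [lamT_eq ⟨htb, hte, hbe⟩]
    exact lens_B h hmin hZ hl hup H hxc htb hte hbe htx hb
      (fun he => hbe (honly e heS he).symm) hxZ Fu Fu' hu hxu' huv
  by_cases he : e ∈ T x
  · obtain ⟨hxZ, honly⟩ := hins e heS he
    rw [lamT_symm, lamT_eq ⟨hte, htb, hbe.symm⟩]
    have e1 : ({t, b, e} : Set (Fin 6)) = {t, e, b} := by rw [Set.pair_comm b e]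
    rw [e1] at Fu Fu'
    exact lens_B h hmin hZ hl hup H hxc hte htb hbe.symm htx he hb hxZ Fu Fu' hu hxu' huv
  · -- the ordinary lens lemma
    exfalso
    refine hnot (Fu'.fc.lens' h hxu' huv fun i hi => ?_)
    by_cases hit : i = t
    · exact Or.inl hit
    · refine Or.inr fun hi' => ?_
      rcases hi' with h1 | h1 | h1
      · exact hit h1
      · exact hb (h1 ▸ hi)
      · exact he ((show i = e from h1) ▸ hi)

end Vale.Agent.P032.Carr
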