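import Vale.Agent.P032.S5.H483.IrrZ
import Vale.Agent.P032.S5.H483.Lens

/-!
# P032, carriers: faces, the distance-two rule and the lens lemma for irredundant palettes

`Fc T u s` : the colours of `s` are colours of `u` and no point of the unit circle about `u` has its
palette inside `s`.  For `|T u| ≤ 3` this holds for `s = T u` (`Irr.fc_three`); for a harmless
four-coloured point `u` it holds for the three-sets `s ⊆ T u` without the pair of `u`
(`Irr.fc_harmless`).

* `Fc.five`, `Fc.comp` : the distance-two rule, no four-coloured points on both circles;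
* `Fc.comp_harmless` : the distance-two rule, harmless points on both circles;
* `Fc.lens` : the lens lemma.
-/

open Set Filter Topology Metric

noncomputable section

namespace Vale.Agent.P032.Six

variable {k : ℕ} {U : Fin k → Set ℂ} {T : ℂ → Set (Fin k)}

/-- `s` is a face at `u` -/
structure Fc (T : ℂ → Set (Fin k)) (u : ℂ) (s : Set (Fin k)) : Prop where
  sub : s ⊆ T u
  full : ∀ y, dist y u = 1 → ¬ T y ⊆ s

theorem Irr.fc_three (h : Irr U T) {u : ℂ} (h3 : (T u).ncard ≤ 3) : Fc T u (T u) :=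
  ⟨Subset.rfl, fun _ hy => h.not_sub hy h3⟩

theorem fc_harmless {u : ℂ} {A s : Set (Fin k)} (hs : s ⊆ T u)
    (hA : ∀ y, dist y u = 1 → T y ⊆ T u → A ⊆ T y) (hAs : ¬ A ⊆ s) : Fc T u s :=
  ⟨hs, fun y hy hsub => hAs ((hA y hy (hsub.trans hs)).trans hsub)⟩

/-- a face of a point with at most three colours which has three elements is the palette -/
theorem Fc.eq_of_three {u : ℂ} {s : Set (Fin k)} (F : Fc T u s) (hs : s.ncard = 3)
    (h3 : (T u).ncard ≤ 3) : T u = s :=
  (Set.eq_of_subset_of_ncard_le F.sub (by omega) (Set.toFinite _)).symm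

theorem Fc.arcX (h : Irr U T) {u p : ℂ} {s : Set (Fin k)} (F : Fc T u s) {t : Fin k}
    (ht : T p ⊆ insert t s) : ∀ᶠ q in 𝓝[sphere u 1] p, t ∈ T q := by
  filter_upwards [mem_nhdsWithin_of_mem_nhds (h.nhd p), self_mem_nhdsWithin] with q h1 h2
  by_contra hcon
  exact F.full q h2 fun m hm => (ht (h1 hm)).resolve_left fun e => hcon (e ▸ hm)

theorem Fc.lemmaX (h : Irr U T) {u p v : ℂ} {s : Set (Fin k)} (F : Fc T u s) {t : Fin k}
    (hup : dist p u = 1) (ht : T p ⊆ insert t s) (hv : dist p v = 1) (htv : t ∈ Pal U v) :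
    v = u ∨ v + u = 2 * p :=
  h.mx.partner_line hup ((F.arcX h ht).mono fun q hq => h.sub q hq) hv htv

theorem Fc.five (h : Irr U T) {u u' q : ℂ} {s s' : Set (Fin k)} (hsu : s ⊆ T u)
    (F' : Fc T u' s') (hc : ∀ i, i ∈ s ∨ i ∈ s') (hne : u ≠ u') (hq : dist q u = 1)
    (hq' : dist q u' = 1) (hne2 : u + u' ≠ 2 * q) (x : Fin k) : ∃ t ∈ T q, t ∈ s ∧ t ≠ x := by
  by_contra hcon
  push Not at hcon
  have hsub : T q ⊆ insert x s' := by
    intro m hm
    rcases hc m with h1 | h1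
    · exact Or.inl (hcon m hm h1)
    · exact Or.inr h1
  by_cases hx : x ∈ s
  · rcases F'.lemmaX h hq' hsub hq (h.sub u (hsu hx)) with h1 | h1
    · exact hne h1
    · exact hne2 h1
  · refine F'.full q hq' fun m hm => ?_
    rcases hc m with h1 | h1
    · exact absurd (hcon m hm h1 ▸ h1) hx
    · exact h1

/-- two colours of each side at the common points of the circles -/
theorem Fc.four_le (h : Irr U T) {u u' q : ℂ} {s : Set (Fin k)} (F : Fc T u s)
    (F' : Fc T u' sᶜ) (hne : u ≠ u') (hq : dist q u = 1) (hq' : dist q u' = 1)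
    (hne2 : u + u' ≠ 2 * q) : 2 ≤ (T q ∩ s).ncard ∧ 2 ≤ (T q ∩ sᶜ).ncard := by
  have key : ∀ (a b : ℂ) (r r' : Set (Fin k)), Fc T a r → Fc T b r' → (∀ i, i ∈ r ∨ i ∈ r') →
      a ≠ b → dist q a = 1 → dist q b = 1 → a + b ≠ 2 * q → 2 ≤ (T q ∩ r).ncard := by
    intro a b r r' Fa Fb hc hab ha hb hab2
    obtain ⟨i0, hi0, hi0r, -⟩ : ∃ t ∈ T q, t ∈ r ∧ True := by
      by_contra hcon
      push Not at hcon
      refine Fb.full q hb fun m hm => (hc m).resolve_left fun hmr => ?_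
      exact hcon m hm hmr
    obtain ⟨i1, hi1, hi1r, h01⟩ := Fc.five h Fa.sub Fb hc hab ha hb hab2 i0
    have h2 : ({i1, i0} : Set (Fin k)) ⊆ T q ∩ r := by
      rintro m (rfl | rfl)
      · exact ⟨hi1, hi1r⟩
      · exact ⟨hi0, hi0r⟩
    have h3 := Set.ncard_le_ncard h2 (Set.toFinite _)
    rwa [Set.ncard_pair h01] at h3
  refine ⟨key u u' s sᶜ F F' (fun i => em _) hne hq hq' hne2,
    key u' u sᶜ s F' F (fun i => (em (i ∈ s)).symm) hne.symm hq' hq (by rwa [add_comm])⟩

theorem Fc.four_le' (h : Irr U T) {u u' q : ℂ} {s : Set (Fin k)} (F : Fc T u s)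
    (F' : Fc T u' sᶜ) (hne : u ≠ u') (hq : dist q u = 1) (hq' : dist q u' = 1)
    (hne2 : u + u' ≠ 2 * q) : 4 ≤ (T q).ncard := by
  obtain ⟨h1, h2⟩ := F.four_le h F' hne hq hq' hne2
  have h3 := Set.ncard_inter_add_ncard_sdiff_eq_ncard (T q) s (Set.toFinite _)
  rw [Set.sdiff_eq] at h3
  omega

/-- **Distance-two rule** -/
theorem Fc.comp (h : Irr U T) {u u' : ℂ} {s : Set (Fin k)} (F : Fc T u s)
    (F' : Fc T u' sᶜ) (hne : u ≠ u')
    (hZ : ∀ q, dist q u = 1 → dist q u' = 1 → (T q).ncard ≤ 3) : 2 ≤ dist u u' := by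
  by_contra hlt
  push Not at hlt
  obtain ⟨q, hq, hq', hne2⟩ := l2_exists_inter hlt hne
  have h1 := F.four_le' h F' hne hq hq' hne2
  have h2 := hZ q hq hq'
  omega

/-- the points `u`, `u'` with complementary palettes, `q` on both circles, `T q ∩ T u = {a, b}`:
there is a point on `S(q)` with palette in `{a, b}` -/
theorem Irr.rh_arcF (h : Irr U T) {u u' q : ℂ} {a b r : Fin k} (hu : T u = {a, b, r})
    (hu' : T u' = (T u)ᶜ) (h3 : (T u).ncard ≤ 3) (h3' : (T u').ncard ≤ 3)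
    (hne : u ≠ u') (hq : dist q u = 1) (hq' : dist q u' = 1) (hne2 : u + u' ≠ 2 * q)
    (hr : r ∉ T q) : ∃ y, dist y q = 1 ∧ T y ⊆ {a, b} := by
  have F := h.fc_three h3
  have F' := h.fc_three h3'
  rw [hu'] at F'
  have hmem : ∀ i, i ∈ T u ↔ i = a ∨ i = b ∨ i = r := by
    intro i
    rw [hu]
    simp
  have huq : dist u q = 1 := by rw [dist_comm]; exact hq
  have hcompl : ∀ i, i ∈ T u' ↔ i ∉ T u := by
    intro i; rw [hu']; rfl
  by_contra hcon
  push Not at hcon
  -- `r` near `u` on `S(q)`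
  have e1 : ∀ᶠ y in 𝓝[sphere q 1] u, r ∈ T y := by
    filter_upwards [mem_nhdsWithin_of_mem_nhds (h.nhd u), self_mem_nhdsWithin] with y h1 h2
    by_contra hry
    refine hcon y h2 fun m hm => ?_
    rcases (hmem m).1 (h1 hm) with h4 | h4 | h4
    · exact Or.inl h4
    · exact Or.inr h4
    · exact absurd (h4 ▸ hm) hry
  -- `u ∈ XX`
  obtain ⟨⟨i0, hi0q, hi0⟩, -⟩ : (∃ i ∈ T q, i ∈ T u) ∧ True := by
    refine ⟨?_, trivial⟩
    by_contra hc
    push Not at hc
    exact F'.full q hq' fun m hm => hc m hm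
  have huX : u ∈ XX U := h.mem_XX huq hi0 (h.sub q hi0q)
  obtain ⟨y0, hy0, hry0⟩ := h.partner_XX huX r
  have hl := fun (v : ℂ) (hv : dist u v = 1) (hv' : r ∈ Pal U v) =>
    h.mx.partner_line huq (e1.mono fun y hy => h.sub y hy) hv hv'
  -- the second common point
  obtain ⟨w, hw⟩ : ∃ w, w = u + u' - q := ⟨_, rfl⟩
  have hwu : dist w u = 1 := by
    rw [hw, dist_eq_norm]
    rw [show u + u' - q - u = -(q - u') by ring, norm_neg, ← dist_eq_norm]
    exact hq'
  have hwu' : dist w u' = 1 := by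
    rw [hw, dist_eq_norm]
    rw [show u + u' - q - u' = -(q - u) by ring, norm_neg, ← dist_eq_norm]
    exact hq
  have huw : dist u w = 1 := by rw [dist_comm]; exact hwu
  have hwq : w ≠ q := fun e => hne2 (by rw [hw] at e; linear_combination e)
  have hwq2 : w + q ≠ 2 * u := fun e => hne (by rw [hw] at e; linear_combination -e)
  have hne2' : u + u' ≠ 2 * w := fun e => hwq (by rw [hw] at e ⊢; linear_combination -e)
  have hrw : r ∉ T w := by
    intro hrw
    rcases hl w huw (h.sub w hrw) with h1 | h1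
    · exact hwq h1
    · exact hwq2 h1
  -- two colours of `u` at `w`
  have hawb : a ∈ T w ∧ b ∈ T w := by
    have key : ∀ x y : Fin k, (∀ i, i ∈ T u ↔ i = x ∨ i = y ∨ i = r) → y ∈ T w := by
      intro x y hxy
      obtain ⟨t, ht, htu, htx⟩ := Fc.five h F.sub F' (fun i => em _) hne hwu hwu' hne2' x
      rcases (hxy t).1 htu with h4 | h4 | h4
      · exact absurd h4 htx
      · exact h4 ▸ ht
      · exact absurd (h4 ▸ ht) hrw
    exact ⟨key b a fun i => (hmem i).trans (by tauto), key a b hmem⟩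
  -- `r` near `u` on `S(w)`
  have e2 : ∀ᶠ y in 𝓝[sphere w 1] u, r ∈ T y := by
    -- conditions on `y` near `u`
    have c1 : Tendsto (fun y : ℂ => y + q - u) (𝓝 u) (𝓝 q) := by
      have : Continuous fun y : ℂ => y + q - u := by fun_prop
      have h2 := this.tendsto u
      simpa using h2
    have c2 : ∀ᶠ y in 𝓝 u, T (y + q - u) ⊆ T q := c1.eventually (h.nhd q)
    have c3 : ∀ᶠ y in 𝓝 u, y + q - u ≠ w := c1.eventually (isOpen_ne.mem_nhds hwq.symm)
    have c4 : ∀ᶠ y in 𝓝 u, y ≠ u' := isOpen_ne.mem_nhds hne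
    have c5 := c2.and (c3.and (c4.and (h.nhd u)))
    obtain ⟨V, hV, hVo, huV⟩ := _root_.mem_nhds_iff.1 c5
    filter_upwards [mem_nhdsWithin_of_mem_nhds (hVo.mem_nhds huV),
      mem_nhdsWithin_of_mem_nhds (h.nhd u), self_mem_nhdsWithin] with y hyV hyu hyw
    by_contra hry
    obtain ⟨y1, ⟨⟨hy1V, hy1T⟩, hy1w⟩, hconst⟩ := h.const (S := sphere w 1) (y := y) hyw
      (inter_mem (hVo.mem_nhds hyV) (h.nhd y))
    have hy1T : T y1 ⊆ T y := hy1T
    have hy1w : dist y1 w = 1 := hy1w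
    obtain ⟨d2, d3, d4, d5⟩ := hV hy1V
    have hy1r : r ∉ T y1 := fun hh => hry (hy1T hh)
    have hsub1 : ∀ m ∈ T y1, m = a ∨ m = b := by
      intro m hm
      rcases (hmem m).1 (d5 hm) with h4 | h4 | h4
      · exact Or.inl h4
      · exact Or.inr h4
      · exact absurd (h4 ▸ hm) hy1r
    -- both colours
    have hboth : ∀ x y : Fin k, x ∈ T w → (∀ m ∈ T y1, m = x ∨ m = y) → y ∈ T y1 := by
      intro x y2 hx hxy
      by_contra hcon2
      have h4 : T y1 ⊆ {x} := fun m hm => (hxy m hm).resolve_right fun e => hcon2 (e ▸ hm)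
      exact h.mx.notMem' (h.mem_of_single h4) hy1w (h.sub w hx)
    have hb1 : b ∈ T y1 := hboth a b hawb.1 hsub1
    have ha1 : a ∈ T y1 := hboth b a hawb.2 fun m hm => (hsub1 m hm).symm
    -- the point `q'`
    have hq1 : dist y1 (y1 + q - u) = 1 := by
      rw [dist_eq_norm, show y1 - (y1 + q - u) = -(q - u) by ring, norm_neg, ← dist_eq_norm]
      exact hq
    have hq2 : dist (y1 + q - u) u' = 1 := by
      rw [dist_eq_norm, show y1 + q - u - u' = y1 - w by rw [hw]; ring, ← dist_eq_norm]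
      exact hy1w
    have hno : ∀ m ∈ T y1, m ∉ Pal U (y1 + q - u) := by
      intro m hm hm'
      rcases h.mx.partner_line (u := w) (p := y1) (t := m) hy1w
        (hconst.mono fun z hz => h.sub z (by rw [hz]; exact hm)) hq1 hm' with h4 | h4
      · exact d3 h4
      · refine d4 ?_
        rw [hw] at h4
        linear_combination -h4
    refine F'.full _ hq2 fun m hm => ?_
    have hmq := d2 hm
    show m ∉ T u
    intro hmu
    rcases (hmem m).1 hmu with h4 | h4 | h4
    · exact hno m (h4 ▸ ha1) (h.sub _ hm)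
    · exact hno m (h4 ▸ hb1) (h.sub _ hm)
    · exact hr (h4 ▸ hmq)
  have hl2 := h.mx.partner_line huw (e2.mono fun y hy => h.sub y hy) hy0 hry0
  have hl1 := hl y0 hy0 hry0
  rcases hl1 with h1 | h1 <;> rcases hl2 with h2 | h2
  · exact hwq (h2.symm.trans h1)
  · rw [h1] at h2
    exact hwq2 (by linear_combination h2)
  · rw [h2] at h1
    exact hwq2 h1
  · exact hwq (by linear_combination h2 - h1)

/-- **Distance-two rule**, with harmless points on both circles. -/
theorem Fc.comp_harmless (h : Irr U T) {u u' : ℂ} {s : Set (Fin k)} (F : Fc T u s)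
    (F' : Fc T u' sᶜ) (hne : u ≠ u') (hs : s.ncard = 3) (hs' : sᶜ.ncard = 3)
    (hZ : ∀ q, dist q u = 1 → dist q u' = 1 → 4 ≤ (T q).ncard → (T q).ncard ≤ 4 ∧
      (T u).ncard ≤ 3 ∧ (T u').ncard ≤ 3 ∧ ∃ A : Set (Fin k), A.Nonempty ∧
        ∀ y, dist y q = 1 → T y ⊆ T q → A ⊆ T y) : 2 ≤ dist u u' := by
  by_contra hlt
  push Not at hlt
  obtain ⟨q, hq, hq', hne2⟩ := l2_exists_inter hlt hne
  obtain ⟨h4, h3, h3', A, ⟨x, hx⟩, hA⟩ := hZ q hq hq' (F.four_le' h F' hne hq hq' hne2)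
  obtain ⟨c1, c2⟩ := F.four_le h F' hne hq hq' hne2
  have h5 := Set.ncard_inter_add_ncard_sdiff_eq_ncard (T q) s (Set.toFinite _)
  rw [Set.sdiff_eq] at h5
  have hTu : T u = s := F.eq_of_three hs h3
  have hTu' : T u' = sᶜ := F'.eq_of_three hs' h3'
  have key : ∀ (v v' : ℂ) (r : Set (Fin k)), r.ncard = 3 → T v = r → T v' = rᶜ →
      (T v).ncard ≤ 3 → (T v').ncard ≤ 3 → v ≠ v' → dist q v = 1 → dist q v' = 1 →
      v + v' ≠ 2 * q → (T q ∩ r).ncard = 2 → x ∈ r := by
    intro v v' r hr hv hv' g3 g3' hvv hqv hqv' hvv2 hc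
    obtain ⟨a, b, hab, hab2⟩ := Set.ncard_eq_two.1 hc
    have hasub : ({a, b} : Set (Fin k)) ⊆ r := by rw [← hab2]; exact inter_subset_right
    have hasubq : ({a, b} : Set (Fin k)) ⊆ T q := by rw [← hab2]; exact inter_subset_left
    have hd1 : (r \ {a, b}).ncard = 1 := by
      rw [Set.ncard_sdiff hasub (Set.toFinite _), hr, Set.ncard_pair hab]
    obtain ⟨m, hm⟩ := Set.ncard_eq_one.1 hd1
    have hmr : m ∈ r \ {a, b} := by rw [hm]; rfl
    have hr3 : r = {a, b, m} := by
      ext i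
      simp only [mem_insert_iff, mem_singleton_iff]
      constructor
      · intro hi
        by_cases hi2 : i ∈ ({a, b} : Set (Fin k))
        · rcases hi2 with h6 | h6
          · exact Or.inl h6
          · exact Or.inr (Or.inl h6)
        · have : i ∈ r \ {a, b} := ⟨hi, hi2⟩
          rw [hm] at this
          exact Or.inr (Or.inr this)
      · rintro (rfl | rfl | rfl)
        · exact hasub (by simp)
        · exact hasub (by simp)
        · exact hmr.1
    obtain ⟨y, hy, hyT⟩ := h.rh_arcF (u := v) (u' := v') (q := q) (a := a) (b := b) (r := m)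
      (by rw [hv]; exact hr3) (by rw [hv, hv']) g3 g3' hvv hqv hqv' hvv2
      (fun hmq => hmr.2 (by rw [← hab2]; exact ⟨hmq, hmr.1⟩))
    exact hasub (hyT (hA y hy (hyT.trans hasubq) hx))
  have k1 : x ∈ s := key u u' s hs hTu hTu' h3 h3' hne hq hq' hne2 (by omega)
  have k2 : x ∈ sᶜ := key u' u sᶜ hs' hTu' (by rw [hTu, compl_compl]) h3' h3 hne.symm hq' hq
    (by rwa [add_comm]) (by omega)
  exact k2 k1

/-- **Lens lemma** -/
theorem Fc.lens (h : Irr U T) {u u' v : ℂ} {s' : Set (Fin k)} (F' : Fc T u' s') {t : Fin k}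
    (hv : dist v u' = 1) (huv : u + u' = 2 * v) (ht : T v ⊆ insert t s') :
    ∀ᶠ w in 𝓝 u, t ∈ Pal U w → dist w v ≤ 1 → w = u := by
  have hu : 2 * v - u' = u := by rw [← huv]; ring
  have := h.mx.lens0 hv ((F'.arcX h ht).mono fun q hq => h.sub q hq)
  rw [hu] at this
  filter_upwards [this] with w hw htw hwv
  rw [← hu]
  exact l2_eq_antipode hv hwv (hw htw)

/-- the lens lemma in the form of the state calculus -/
theorem Fc.lens' (h : Irr U T) {u u' v : ℂ} {s' : Set (Fin k)} (F' : Fc T u' s') {t : Fin k}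
    (hv : dist v u' = 1) (huv : u + u' = 2 * v) (ht : T v ⊆ insert t s') :
    ∀ᶠ w in 𝓝[closedBall v 1 \ {u}] u, t ∉ T w := by
  filter_upwards [mem_nhdsWithin_of_mem_nhds (F'.lens h hv huv ht), self_mem_nhdsWithin]
    with w h1 h2 h3
  exact h2.2 (h1 (h.sub w h3) h2.1)

end Vale.Agent.P032.Six
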