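import Vale.Agent.P032.S5.H306.Defs

/-!
# P032: D-star pairs, the directions and the ends

* `DP.dir_eq` : the two circles have the same directions;
* `DP.not_axis` : the axis is not in the closure of the directions;
* `DP.ends` : the palettes of the end points.
-/

open Set Filter Topology Metric

noncomputable section

namespace Vale.Agent.P032.Six

variable {U : Fin 6 → Set ℂ} {T : ℂ → Set (Fin 6)}

/-- near `p` the circle about `u` has points without `m`, if `m` is a colour of a point `v` with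
`|p - v| = 1` off the line -/
theorem Irr.esc678 (h : Irr U T) {p u v : ℂ} {m : Fin 6} (hpu : dist p u = 1)
    (hpv : dist p v = 1) (h1 : v ≠ u) (h2 : v + u ≠ 2 * p) (hm : m ∈ T v) :
    ∃ q, dist q u = 1 ∧ T q ⊆ T p ∧ m ∉ T q := by
  by_contra hcon
  push Not at hcon
  rcases h.mx.partner_line (u := u) (p := p) (v := v) (t := m) hpu (by
    filter_upwards [mem_nhdsWithin_of_mem_nhds (h.nhd p), self_mem_nhdsWithin] with q g1 g2
    exact h.sub q (hcon q g2 g1)) hpv (h.sub v hm) with h3 | h3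
  · exact h1 h3
  · exact h2 h3

/-- the pair of a harmless point `u` and a colour `m` of `p` which is not needed -/
theorem Harm.esc678 (h : Irr U T) {p u v : ℂ} {A : Set (Fin 6)} (hu : Harm T u A) {m : Fin 6}
    (hpu : dist p u = 1) (hpv : dist p v = 1) (h1 : v ≠ u) (h2 : v + u ≠ 2 * p) (hm : m ∈ T v)
    (hsub : ∀ i ∈ T p, i ≠ m → i ∈ T u) : A ⊆ T p ∧ m ∉ A := by
  obtain ⟨q, hq, hqp, hmq⟩ := h.esc678 hpu hpv h1 h2 hm
  have h3 : A ⊆ T q := hu.h1 q hq fun i hi => hsub i (hqp hi) fun him => hmq (him ▸ hi)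
  exact ⟨h3.trans hqp, fun hmA => hmq (h3 hmA)⟩

namespace DP

variable {z y : ℂ} {A B : Set (Fin 6)}

/-- `Dir` is relatively open -/
theorem dir_open (h : Irr U T) {z ξ : ℂ} (hξ : ξ ∈ Dir T z) :
    ∀ᶠ η in 𝓝 ξ, ‖η‖ = 1 → η ∈ Dir T z := by
  have h1 : Tendsto (fun η : ℂ => z + η) (𝓝 ξ) (𝓝 (z + ξ)) := by
    have : Continuous fun η : ℂ => z + η := by fun_prop
    exact this.tendsto ξ
  filter_upwards [h1.eventually (h.nhd (z + ξ))] with η hη hn
  exact ⟨hn, hη.trans hξ.2⟩

theorem cl_ev {z ξ : ℂ} (hcl : ξ ∈ closure (Dir T z)) {Q : ℂ → Prop}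
    (hQ : ∀ᶠ w in 𝓝 (z + ξ), Q w) : ∃ η ∈ Dir T z, Q (z + η) := by
  have h1 : Tendsto (fun η : ℂ => z + η) (𝓝 ξ) (𝓝 (z + ξ)) := by
    have : Continuous fun η : ℂ => z + η := by fun_prop
    exact this.tendsto ξ
  obtain ⟨η, h2, h3⟩ := ((mem_closure_iff_frequently.1 hcl).and_eventually
    (h1.eventually hQ)).exists
  exact ⟨η, h2, h3⟩

theorem d_add {z ξ : ℂ} (hξ : ‖ξ‖ = 1) : dist (z + ξ) z = 1 := by
  rw [dist_eq_norm, add_sub_cancel_left, hξ]

/-- the pair lives on the open set of directions -/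
theorem sub_dir {z ξ : ℂ} (hz : Harm T z A) (hξ : ξ ∈ Dir T z) : A ⊆ T (z + ξ) :=
  hz.h1 _ (d_add hξ.1) hξ.2

theorem d_tr {z y ξ : ℂ} (hd : dist z y = 1) : dist (z + ξ) (y + ξ) = 1 := by
  rw [dist_eq_norm] at hd ⊢
  rw [← hd]
  congr 1
  ring

theorem dir_sub (h : Irr U T) (P : DP T z y A B) {ξ : ℂ} (hξ : ξ ∈ Dir T z) (h1 : ξ ≠ z - y)
    (h2 : ξ ≠ y - z) : ξ ∈ Dir T y := by
  refine ⟨hξ.1, ?_⟩
  have hd := d_add (z := z) hξ.1
  have hdt := d_tr (ξ := ξ) P.d
  rw [P.cy]
  intro i hi hiA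
  have hJ : ∀ᶠ q in 𝓝[sphere z 1] (z + ξ), i ∈ Pal U q := by
    filter_upwards [mem_nhdsWithin_of_mem_nhds (h.nhd (z + ξ)), self_mem_nhdsWithin] with q g1 g2
    exact h.sub q (P.hz.h1 q g2 (g1.trans hξ.2) hiA)
  rcases h.mx.partner_line hd hJ hdt (h.sub _ hi) with h3 | h3
  · exact h1 (by linear_combination h3)
  · exact h2 (by linear_combination -h3)

theorem not_axis (h : Irr U T) (P : DP T z y A B) :
    z - y ∉ closure (Dir T z) ∧ y - z ∉ closure (Dir T z) := by
  obtain ⟨a, ha⟩ : A.Nonempty := by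
    rw [← Set.ncard_pos (Set.toFinite _), P.hz.cardA]; norm_num
  obtain ⟨b, hb⟩ : B.Nonempty := by
    rw [← Set.ncard_pos (Set.toFinite _), P.hy.cardA]; norm_num
  constructor
  · intro hcl
    -- a direction near `z - y`, different from it
    have h0 : ‖z - y‖ = 1 := by rw [← dist_eq_norm]; exact P.d
    have c1 : Tendsto (fun η : ℂ => y + η) (𝓝 (z - y)) (𝓝 z) := by
      have : Continuous fun η : ℂ => y + η := by fun_prop
      have h2 := this.tendsto (z - y)
      simpa using h2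
    have c2 : ∀ᶠ η in 𝓝 (z - y), T (y + η) ⊆ T z := c1.eventually (h.nhd z)
    have c3 : ∀ᶠ η in 𝓝 (z - y), η ≠ y - z := by
      refine isOpen_ne.mem_nhds fun h3 => ?_
      have h4 : z - y = 0 := by linear_combination h3 / 2
      rw [h4, norm_zero] at h0
      exact zero_ne_one h0
    obtain ⟨V, hV, hVo, hVz⟩ := _root_.mem_nhds_iff.1 (c2.and c3)
    obtain ⟨η, hηV, hη⟩ := mem_closure_iff_nhds.1 hcl V (hVo.mem_nhds hVz)
    obtain ⟨η', hη', hη'V, hne⟩ : ∃ η' ∈ Dir T z, η' ∈ V ∧ η' ≠ z - y := by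
      by_cases hne : η = z - y
      · -- rotate
        have hcc : Continuous fun t : ℝ => η * cis t := by
          have := continuous_cis
          fun_prop
        have h5 : Tendsto (fun t : ℝ => η * cis t) (𝓝 0) (𝓝 η) := by
          have h6 := hcc.tendsto 0
          have h7 : η * cis 0 = η := by unfold cis; simp
          rwa [h7] at h6
        have h8 := h5.eventually ((dir_open h hη).and (hVo.mem_nhds hηV))
        obtain ⟨t, ⟨⟨ht1, ht2⟩, ht3⟩, ht4⟩ : ∃ t : ℝ, (((‖η * cis t‖ = 1 → η * cis t ∈ Dir T z) ∧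
            η * cis t ∈ V) ∧ t < 1) ∧ 0 < t :=
          (((h8.and (Iio_mem_nhds (by norm_num : (0 : ℝ) < 1))).filter_mono
            nhdsWithin_le_nhds).and self_mem_nhdsWithin).exists (f := 𝓝[>] (0 : ℝ))
        refine ⟨η * cis t, ht1 (by rw [norm_mul, norm_cis, hη.1, one_mul]), ht2, fun h9 => ?_⟩
        rw [hne] at h9
        have h10 : z - y ≠ 0 := fun h11 => by
          rw [h11, norm_zero] at h0
          exact zero_ne_one h0
        have h11 : cis t = 1 := by
          have h12 : (z - y) * cis t = (z - y) * 1 := by rw [mul_one]; exact h9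
          exact mul_left_cancel₀ h10 h12
        have h13 : Real.sin t = 0 := by
          have h14 := congrArg Complex.im h11
          rw [cis, Complex.exp_ofReal_mul_I_im, Complex.one_im] at h14
          exact h14
        have h15 := Real.sin_pos_of_pos_of_lt_pi ht4 (by
          have := Real.pi_gt_three
          linarith)
        linarith
      · exact ⟨η, hη, hηV, hne⟩
    obtain ⟨g1, g2⟩ := hV hη'V
    have h3 := P.dir_sub h hη' hne g2
    have h4 := g1 (sub_dir P.hy h3 hb)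
    rw [P.cz] at h4
    exact h4 hb
  · intro hcl
    obtain ⟨η, hη, h1⟩ := cl_ev hcl (Q := fun w => T w ⊆ T y) (by
      have h2 : z + (y - z) = y := by ring
      rw [h2]
      exact h.nhd y)
    have h4 := h1 (sub_dir P.hz hη ha)
    rw [P.cy] at h4
    exact h4 ha

theorem dir_eq (h : Irr U T) (P : DP T z y A B) : Dir T z = Dir T y := by
  obtain ⟨g1, g2⟩ := P.not_axis h
  obtain ⟨g3, g4⟩ := P.symm.not_axis h
  apply Subset.antisymm
  · intro ξ hξ
    exact P.dir_sub h hξ (fun h1 => g1 (h1 ▸ subset_closure hξ))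
      fun h1 => g2 (h1 ▸ subset_closure hξ)
  · intro ξ hξ
    exact P.symm.dir_sub h hξ (fun h1 => g3 (h1 ▸ subset_closure hξ))
      fun h1 => g4 (h1 ▸ subset_closure hξ)

/-- the pair is on the closure -/
theorem sub_cl (h : Irr U T) {z ξ : ℂ} (hz : Harm T z A) (hcl : ξ ∈ closure (Dir T z)) :
    A ⊆ T (z + ξ) := by
  obtain ⟨η, hη, h1⟩ := cl_ev hcl (Q := fun w => T w ⊆ T (z + ξ)) (h.nhd (z + ξ))
  exact (sub_dir hz hη).trans h1

/-- the pair of an end is not the pair of the centre -/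
theorem end_ne (h : Irr U T) {z ξ : ℂ} (hz : Harm T z A) (hcl : ξ ∈ closure (Dir T z))
    (hn : ¬ T (z + ξ) ⊆ T z) : ¬ Harm T (z + ξ) A := by
  intro hv
  obtain ⟨η, hη, h1⟩ := cl_ev hcl (Q := fun w => A ⊆ T w → T w = T (z + ξ)) (hv.layerE h)
  exact hn (by rw [← h1 (sub_dir hz hη)]; exact hη.2)

/-- **Ends** -/
theorem ends (F : Fr U T) (P : DP T z y A B) {ξ : ℂ} (hξ : ‖ξ‖ = 1)
    (hcl : ξ ∈ closure (Dir T z)) (hn : ¬ T (z + ξ) ⊆ T z) :
    ∃ s ∈ T z \ A, ∃ x ∈ B, T (z + ξ) = A ∪ {s, x} ∧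
      ∃ A', Harm T (z + ξ) A' ∧ s ∈ A' ∧ A' ⊆ insert s A := by
  have h := F.irr
  obtain ⟨ax1, ax2⟩ := P.not_axis h
  have hξ1 : ξ ≠ z - y := fun e => ax1 (e ▸ hcl)
  have hξ2 : ξ ≠ y - z := fun e => ax2 (e ▸ hcl)
  have hdir := P.dir_eq h
  have hcl' : ξ ∈ closure (Dir T y) := by rw [← hdir]; exact hcl
  have hn' : ¬ T (y + ξ) ⊆ T y := by
    intro hsub
    have h1 : ξ ∈ Dir T z := by rw [hdir]; exact ⟨hξ, hsub⟩
    exact hn h1.2
  have hAv := sub_cl h P.hz hcl
  have hBw := sub_cl h P.hy hcl'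
  have hlv := end_ne h P.hz hcl hn
  have hlw := end_ne h P.hy hcl' hn'
  have dvz := d_add (z := z) hξ
  have dwy := d_add (z := y) hξ
  have dvw := d_tr (ξ := ξ) P.d
  have dzy := P.d
  obtain ⟨v, hv⟩ : ∃ v, v = z + ξ := ⟨_, rfl⟩
  obtain ⟨w, hw⟩ : ∃ w, w = y + ξ := ⟨_, rfl⟩
  -- the line conditions
  have n1 : z ≠ w := fun e => hξ1 (by rw [hw] at e; linear_combination -e)
  have n2 : z + w ≠ 2 * v := fun e => hξ2 (by rw [hw, hv] at e; linear_combination -e)
  have n3 : y ≠ v := fun e => hξ2 (by rw [hv] at e; linear_combination -e)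
  have n4 : y + v ≠ 2 * w := fun e => hξ1 (by rw [hw, hv] at e; linear_combination -e)
  have n5 : z + w ≠ 2 * y := fun e => hξ2 (by rw [hw] at e; linear_combination e)
  have n6 : y + v ≠ 2 * z := fun e => hξ1 (by rw [hv] at e; linear_combination e)
  rw [← hv] at hn hAv hlv dvz dvw ⊢
  rw [← hw] at hn' hBw hlw dwy dvw
  -- the colours
  have hAB : ∀ i, i ∈ A → i ∉ B := fun i hi hi' => Set.disjoint_left.1 P.disj hi hi'
  have hTz : ∀ i, i ∈ T z ↔ i ∉ B := fun i => by rw [P.cz]; rfl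
  have hTy : ∀ i, i ∈ T y ↔ i ∉ A := fun i => by rw [P.cy]; rfl
  have hCz : ∀ i, i ∉ A → i ∉ B → i ∈ T z \ A := fun i h1 h2 => ⟨(hTz i).2 h2, h1⟩
  obtain ⟨x, hxv, hxB⟩ : ∃ x ∈ T v, x ∈ B := by
    obtain ⟨x, h1, h2⟩ := Set.not_subset.1 hn
    exact ⟨x, h1, by by_contra h3; exact h2 ((hTz x).2 h3)⟩
  obtain ⟨a, haw, haA⟩ : ∃ a ∈ T w, a ∈ A := by
    obtain ⟨x, h1, h2⟩ := Set.not_subset.1 hn'
    exact ⟨x, h1, by by_contra h3; exact h2 ((hTy x).2 h3)⟩
  obtain ⟨a', haa, hA2⟩ : ∃ a', a' ≠ a ∧ A = {a, a'} := by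
    obtain ⟨p, q, hpq, hAe⟩ := Set.ncard_eq_two.1 P.hz.cardA
    rw [hAe] at haA
    rcases haA with rfl | haA
    · exact ⟨q, hpq.symm, hAe⟩
    · rw [mem_singleton_iff] at haA
      subst haA
      exact ⟨p, hpq, hAe.trans (Set.pair_comm _ _)⟩
  obtain ⟨x', hxx, hB2⟩ : ∃ x', x' ≠ x ∧ B = {x, x'} := by
    obtain ⟨p, q, hpq, hAe⟩ := Set.ncard_eq_two.1 P.hy.cardA
    rw [hAe] at hxB
    rcases hxB with rfl | hxB
    · exact ⟨q, hpq.symm, hAe⟩
    · rw [mem_singleton_iff] at hxB
      subst hxB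
      exact ⟨p, hpq, hAe.trans (Set.pair_comm _ _)⟩
  have hA' : ∀ i ∈ A, i = a ∨ i = a' := fun i hi => by rw [hA2] at hi; exact hi
  have hB' : ∀ i ∈ B, i = x ∨ i = x' := fun i hi => by rw [hB2] at hi; exact hi
  have ha'A : a' ∈ A := by rw [hA2]; simp
  have hx'B : x' ∈ B := by rw [hB2]; simp
  have other : ∀ s ∈ T z \ A, ∃ s', s' ≠ s ∧ s' ∈ T z \ A ∧ ∀ i ∈ T z \ A, i = s ∨ i = s' := by
    intro s hs
    obtain ⟨p, q, hpq, hAe⟩ := Set.ncard_eq_two.1 P.hz.cardC
    rw [hAe] at hs ⊢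
    rcases hs with rfl | hs
    · exact ⟨q, hpq.symm, by simp, fun i hi => hi⟩
    · rw [mem_singleton_iff] at hs
      subst hs
      exact ⟨p, hpq, by simp, fun i hi => hi.symm⟩
  -- a colour of `C` at `v`
  obtain ⟨s, hsC, hsv⟩ : ∃ s ∈ T z \ A, s ∈ T v := by
    by_contra hcon
    push Not at hcon
    have hvAB : ∀ i ∈ T v, i ∈ A ∨ i ∈ B := by
      intro i hi
      by_contra h1
      push Not at h1
      exact hcon i (hCz i h1.1 h1.2) hi
    -- it is enough that the pair of `w` is in `B`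
    have fin : ∀ B', Harm T w B' → (∀ i ∈ B', i ∈ B) → False := by
      intro B' hB'' h1
      have h2 : B' = B := Set.eq_of_subset_of_ncard_le h1
        (by rw [P.hy.cardA, hB''.cardA]) (Set.toFinite _)
      exact hlw (h2 ▸ hB'')
    by_cases hwC : ∃ s ∈ T z \ A, s ∈ T w
    · obtain ⟨s, hsC, hsw⟩ := hwC
      obtain ⟨s', hss, hs'C, hC2⟩ := other s hsC
      have hsB : s ∉ B := (hTz s).1 hsC.1
      have h4 : (T w).ncard = 4 := by
        have h1 : insert a (insert s B) ⊆ T w := insert_subset haw (insert_subset hsw hBw)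
        have h2 : (insert a (insert s B)).ncard = 4 := by
          rw [Set.ncard_insert_of_notMem _ (Set.toFinite _),
            Set.ncard_insert_of_notMem hsB (Set.toFinite _), P.hy.cardA]
          rintro (h3 | h3)
          · exact hsC.2 (h3 ▸ haA)
          · exact hAB a haA h3
        have h3 := Set.ncard_le_ncard h1 (Set.toFinite _)
        have h5 := F.le4 w
        omega
      obtain ⟨B', hB''⟩ := F.harm w h4
      obtain ⟨k1, -⟩ := hB''.esc678 h (p := v) (v := z) (m := a') dvw dvz n1 n2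
        ((hTz a').2 (hAB a' ha'A)) fun i hi hia => by
          rcases hvAB i hi with h1 | h1
          · rw [(hA' i h1).resolve_right hia]; exact haw
          · exact hBw h1
      obtain ⟨k2, -⟩ := hB''.esc678 h (p := y) (v := z) (m := s')
        (by rw [dist_comm]; exact dwy) (by rw [dist_comm]; exact dzy) n1 n5 hs'C.1
        fun i hi his => by
          by_cases hiB : i ∈ B
          · exact hBw hiB
          · rw [(hC2 i (hCz i ((hTy i).1 hi) hiB)).resolve_right his]; exact hsw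
      refine fin B' hB'' fun i hi => ?_
      exact (hvAB i (k1 hi)).resolve_left ((hTy i).1 (k2 hi))
    · push Not at hwC
      have hwAB : ∀ i ∈ T w, i ∈ A ∨ i ∈ B := by
        intro i hi
        by_contra h1
        push Not at h1
        exact hwC i (hCz i h1.1 h1.2) hi
      by_cases h3v : (T v).ncard ≤ 3
      · rcases h.lemmaX (u := v) (p := w) (v := y) (t := x') (by rw [dist_comm]; exact dvw) h3v
          (fun i hi => by
            rcases hwAB i hi with h1 | h1
            · exact Or.inr (hAv h1)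
            · rcases hB' i h1 with h2 | h2
              · rw [h2]; exact Or.inr hxv
              · exact Or.inl h2) dwy
          (h.sub y ((hTy x').2 fun h1 => hAB x' h1 hx'B)) with h1 | h1
        · exact n3 h1
        · exact n4 h1
      by_cases h3w : (T w).ncard ≤ 3
      · rcases h.lemmaX (u := w) (p := v) (v := z) (t := a') dvw h3w
          (fun i hi => by
            rcases hvAB i hi with h1 | h1
            · rcases hA' i h1 with h2 | h2
              · rw [h2]; exact Or.inr haw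
              · exact Or.inl h2
            · exact Or.inr (hBw h1)) dvz
          (h.sub z ((hTz a').2 (hAB a' ha'A))) with h1 | h1
        · exact n1 h1
        · exact n2 h1
      have hAB4 : (A ∪ B).ncard = 4 := by
        rw [Set.ncard_union_eq P.disj (Set.toFinite _) (Set.toFinite _), P.hz.cardA, P.hy.cardA]
      have hTv : A ∪ B = T w := by
        refine (Set.eq_of_subset_of_ncard_le (s := T w) (t := A ∪ B) (fun i hi => hwAB i hi) ?_
          (Set.toFinite _)).symm
        rw [hAB4]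
        omega
      obtain ⟨B', hB''⟩ := F.harm w (by
        have := F.le4 w
        omega)
      have key : ∀ m ∈ A, B' ⊆ T v ∧ m ∉ B' := fun m hm =>
        hB''.esc678 h (p := v) (v := z) (m := m) dvw dvz n1 n2
          ((hTz m).2 (hAB m hm)) fun i hi _ => by
            rw [← hTv]
            exact hvAB i hi
      refine fin B' hB'' fun i hi => ?_
      exact (hvAB i ((key a haA).1 hi)).resolve_left fun hiA => (key i hiA).2 hi
  -- the palette
  have hsB : s ∉ B := (hTz s).1 hsC.1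
  have hsx : s ≠ x := fun e => hsB (e ▸ hxB)
  have hTv : A ∪ {s, x} = T v := by
    have h1 : A ∪ {s, x} ⊆ T v := by
      refine union_subset hAv ?_
      rintro i (rfl | rfl)
      · exact hsv
      · exact hxv
    refine Set.eq_of_subset_of_ncard_le h1 ?_ (Set.toFinite _)
    rw [Set.ncard_union_eq _ (Set.toFinite _) (Set.toFinite _), P.hz.cardA, Set.ncard_pair hsx]
    · exact F.le4 v
    · rw [Set.disjoint_left]
      rintro i hi (h2 | h2)
      · exact hsC.2 (h2 ▸ hi)
      · exact hAB i hi ((show i = x from h2) ▸ hxB)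
  have h4 : (T v).ncard = 4 := by
    rw [← hTv, Set.ncard_union_eq _ (Set.toFinite _) (Set.toFinite _), P.hz.cardA,
      Set.ncard_pair hsx]
    rw [Set.disjoint_left]
    rintro i hi (h2 | h2)
    · exact hsC.2 (h2 ▸ hi)
    · exact hAB i hi ((show i = x from h2) ▸ hxB)
  obtain ⟨A', hA''⟩ := F.harm v h4
  obtain ⟨s', hss, hs'C, hC2⟩ := other s hsC
  obtain ⟨k1, k2⟩ := hA''.esc678 h (p := z) (v := y) (m := s')
    (by rw [dist_comm]; exact dvz) dzy n3 n6 (by
      have := hs'C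
      rw [P.hC] at this
      exact this.1) fun i hi his => by
        by_cases hiA : i ∈ A
        · exact hAv hiA
        · rw [(hC2 i ⟨hi, hiA⟩).resolve_right his]; exact hsv
  have k3 : A' ⊆ insert s A := by
    intro i hi
    by_cases hiA : i ∈ A
    · exact Or.inr hiA
    · exact Or.inl ((hC2 i ⟨k1 hi, hiA⟩).resolve_right fun e => k2 (e ▸ hi))
  refine ⟨s, hsC, x, hxB, hTv.symm, A', hA'', ?_, k3⟩
  by_contra hsA'
  have k4 : A' = A := Set.eq_of_subset_of_ncard_le
    (fun i hi => (k3 hi).resolve_left fun e => hsA' (e ▸ hi))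
    (by rw [P.hz.cardA, hA''.cardA]) (Set.toFinite _)
  exact hlv (k4 ▸ hA'')

end DP

end Vale.Agent.P032.Six
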