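import Vale.Agent.P032.S5.H678.Lens0
import Vale.Agent.P032.S5.H205.CompU

/-!
# P032, carriers: the removal lemma for general apex covers
-/

open Set Filter Topology Metric

noncomputable section

namespace Vale.Agent.P032.Carr

open Vale.Agent.P032.S5 Vale.Agent.P032.Six

variable {U : Fin 6 → Set ℂ} {T : ℂ → Set (Fin 6)} {Z : Set ℂ} {f : ℂ → Set (Fin 6)}
  {c : ℂ} {R δ₀ : ℝ}

/-- a scale for a property of the exceptional points of the closed disc in a closed set -/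
theorem Hm.scale_D {K : ℂ → Set (Fin 6)} {x : ℂ} (H : Hm K Z f δ₀) {D : Set ℂ} (hD : IsClosed D)
    {P : Set (Fin 6) → Set (Fin 6) → Prop}
    (hP : ∀ z ∈ Z, z ∈ D → dist z x ≤ 1 → P (K z) (f z)) :
    ∃ δ > 0, ∀ z ∈ Z, z ∈ D → (∃ y, dist y x ≤ 1 ∧ dist y z ≤ δ) → P (K z) (f z) := by
  have hc : IsCompact ({z | z ∈ Z ∧ ¬ P (K z) (f z)} ∩ D) := by
    refine IsCompact.inter_right (H.compact.of_isClosed_subset ?_ fun z hz => hz.1) hD
    rw [← isOpen_compl_iff, isOpen_iff_mem_nhds]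
    intro y hy
    by_cases hyZ : y ∈ Z
    · filter_upwards [ball_mem_nhds y H.pos] with z hz hzZ
      obtain ⟨e1, e2⟩ := H.const y hyZ z hzZ.1 (mem_ball.1 hz).le
      exact hy ⟨hyZ, fun h => hzZ.2 (by rw [e1, e2]; exact h)⟩
    · filter_upwards [H.compact.isClosed.isOpen_compl.mem_nhds hyZ] with z hz hzZ
      exact hz hzZ.1
  have hd : Disjoint ({z | z ∈ Z ∧ ¬ P (K z) (f z)} ∩ D) (closedBall x 1) := by
    rw [Set.disjoint_left]
    intro z hz hzS
    exact hz.1.2 (hP z hz.1.1 hz.2 (mem_closedBall.1 hzS))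
  obtain ⟨η, hη, hdis⟩ := hd.exists_thickenings hc isClosed_closedBall
  refine ⟨η / 2, by linarith, ?_⟩
  rintro z hz hzD ⟨y, hy, hyz⟩
  by_contra hcon
  have h1 : y ∈ thickening η ({z | z ∈ Z ∧ ¬ P (K z) (f z)} ∩ D) := by
    rw [mem_thickening_iff]
    exact ⟨z, ⟨⟨hz, hcon⟩, hzD⟩, by linarith⟩
  have h2 : y ∈ thickening η (closedBall x 1) :=
    self_subset_thickening hη _ (mem_closedBall.2 hy)
  exact Set.disjoint_left.1 hdis h1 h2

/-- apex functions -/
structure Ap (T : ℂ → Set (Fin 6)) (Z : Set ℂ) (f : ℂ → Set (Fin 6)) (δ₀ : ℝ)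
    (g : ℂ → Fin 6) : Prop where
  mem : ∀ z ∈ Z, g z ∈ T z ∧ g z ∉ f z
  loc : ∀ z ∈ Z, ∀ z' ∈ Z, dist z z' ≤ δ₀ → g z = g z'

theorem Hm.ap (H : Hm T Z f δ₀) (A : Set (Fin 6)) : Ap T Z f δ₀ (hp T f A) :=
  ⟨fun _ hz => H.apex hz A, fun _ hz _ hz' hd => H.hp_const hz hz' hd A⟩

theorem Ap.sc {g : ℂ → Fin 6} (G : Ap T Z f δ₀ g) (H : Hm T Z f δ₀) {δ : ℝ} (hδ : 0 < δ)
    (hδ' : δ ≤ δ₀ / 2) : Sc T Z δ g := by
  have hδ₀ := H.pos
  refine ⟨hδ, fun z hz z' hz' hd => G.loc z hz z' hz' (by linarith), fun z hz w hw hwZ => ?_⟩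
  refine H.faceU hz (by linarith) hwZ fun i hi => ?_
  rcases hi with rfl | hi
  · exact Or.inr (G.mem z hz)
  · exact Or.inl hi

theorem Ap.lam_eq {g : ℂ → Fin 6} (G : Ap T Z f δ₀ g) (H : Hm T Z f δ₀) {δ : ℝ} (hδ : 0 < δ)
    (hδ' : δ ≤ δ₀ / 2) {x : ℂ} {a : Fin 6} (hr : Rg T Z x) (ha : Av T x a)
    (hA : Av (apx T Z δ g) x a) {s : Finset (Fin 6)} (has : a ∈ s) :
    lamS (apx T Z δ g) a x s = lamH T Z f δ₀ a x s := by
  have hδ₀ := H.pos
  refine (G.sc H hδ hδ').eq (H.sc (by linarith) le_rfl {a}) H.compact H.usc H.ne hr ?_ hA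
    (H.av ha _) has
  intro z hz z' hz' w hw hw' hwZ
  obtain ⟨e1, e2⟩ := H.const z hz z' hz' (by
    have := dist_triangle_left z' z w
    linarith)
  refine H.faceU hz (by linarith) hwZ fun i hi => ?_
  rcases hi with rfl | rfl | hi
  · exact Or.inr (G.mem z hz)
  · right
    rw [← e1, ← e2]
    exact H.apex hz' {a}
  · exact Or.inl hi

/-- the points of the disc whose apex palette contains `{t, b, e}` are near `u` -/
theorem near_u (hZ : Zs T Z c R) (h : Irr U T) (hl : Hml T f (ball c (R + 1)))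
    (H : Hm T Z f δ₀) {x u : ℂ} {t b e : Fin 6} (hxc : dist x c ≤ R - 2) (htb : t ≠ b)
    (hs3 : ({t, b, e} : Set (Fin 6)).ncard = 3)
    (huniq : ∀ w, dist w x ≤ 1 → FaceT T w {t, b, e} → w = u) {ε : ℝ} (hε : 0 < ε) :
    ∃ δ1 > 0, ∀ δ > 0, δ ≤ δ1 → δ ≤ δ₀ / 2 → ∀ g, Ap T Z f δ₀ g → ∀ w, dist w x ≤ 1 →
      ({t, b, e} : Set (Fin 6)) ⊆ apx T Z δ g w → dist w u < ε := by
  have hδ₀ := H.pos
  obtain ⟨δ1, hδ1, hP⟩ := H.scale_D (x := x) (D := {z | ε / 2 ≤ dist z u})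
    (isClosed_le continuous_const (by fun_prop))
    (P := fun S F => ¬ (({t, b, e} : Set (Fin 6)) ⊆ S ∧ ¬ F ⊆ {t, b, e})) (by
      intro z hz hzD hzx hcon
      have hzc : dist z c ≤ R := by
        have := dist_triangle z x c
        linarith
      have Fz : FaceT T z {t, b, e} := (face_iff h hZ hl hzc hs3).1 ⟨hcon.1, fun _ => hcon.2⟩
      have hzD : ε / 2 ≤ dist z u := hzD
      rw [huniq z hzx Fz, dist_self] at hzD
      linarith)
  refine ⟨min δ1 (ε / 2), lt_min hδ1 (by linarith), fun δ hδ hδa hδ' g G w hw hws => ?_⟩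
  have hδb : δ ≤ δ1 := hδa.trans (min_le_left _ _)
  have hδc : δ ≤ ε / 2 := hδa.trans (min_le_right _ _)
  have hwc : dist w c ≤ R - 1 := by
    have := dist_triangle w x c
    linarith
  have S := G.sc H hδ hδ'
  by_cases hn : ∃ z ∈ Z, dist w z ≤ δ
  · obtain ⟨z, hz, hwz⟩ := hn
    by_cases hwZ : w ∈ Z
    · exfalso
      have e1 := S.sub_Z hwZ (hws (show t ∈ _ by simp))
      have e2 := S.sub_Z hwZ (hws (show b ∈ _ by simp))
      exact htb ((show t = _ from e1).trans (show b = _ from e2).symm)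
    · have hsub := S.sub hz hwz
      have hap := G.mem z hz
      have hTw : T w ⊆ T z := H.sub z hz w (by linarith)
      by_cases hzD : ε / 2 ≤ dist z u
      · exfalso
        refine hP z hz hzD ⟨w, hw, hwz.trans hδb⟩ ⟨fun i hi => ?_, fun hfz => ?_⟩
        · rcases hsub (hws hi) with h1 | h1
          · rw [h1]; exact hap.1
          · exact hTw h1
        · refine H.forb z hz w (by linarith) hwZ fun i hi => ?_
          rcases hsub (hws (hfz hi)) with h1 | h1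
          · exact absurd (h1 ▸ hi) hap.2
          · exact h1
      · push Not at hzD
        have := dist_triangle w z u
        linarith
  · push Not at hn
    have hwZ : w ∉ Z := fun hwZ => by
      have := hn w hwZ
      rw [dist_self] at this
      linarith
    rw [apx_far hn] at hws
    have Fw : FaceT T w {t, b, e} := (face_iff h hZ hl (by linarith) hs3).1
      ⟨hws, fun hcon => absurd hcon hwZ⟩
    rw [huniq w hw Fw, dist_self]
    exact hε

/-- **Removal lemma**, general covers -/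
theorem rem_zero2 (h : Irr U T) {v u u' : ℂ} {t b e : Fin 6} (hte : t ≠ e)
    (hbe : b ≠ e) (F' : Fc T u' ({t, b, e} : Set (Fin 6))ᶜ) (hv : dist v u' = 1)
    (huv : u + u' = 2 * v) (heV : e ∉ T v) {ε : ℝ} (hε : 0 < ε) :
    ∃ ε' > 0, ∀ K : ℂ → Set (Fin 6), Nice K v → Av K v t →
      (∀ w, dist w u < ε → K w ⊆ insert e (T w) ∧ (insert e (K w)).ncard ≤ 3) →
      (∀ w, dist w v ≤ 1 → ({t, b, e} : Set (Fin 6)) ⊆ K w → dist w u < ε') →
      lamS K t v {t, b, e} = 0 := by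
  classical
  have hn : ‖v - u'‖ = 1 := by rw [← dist_eq_norm]; exact hv
  -- the scale
  obtain ⟨η, hη, hηε⟩ : ∃ η : ℝ, 0 < η ∧ 5 * η < min ε 1 := by
    refine ⟨min ε 1 / 6, ?_, ?_⟩
    · have := lt_min hε one_pos
      positivity
    · have := lt_min hε one_pos
      linarith
  have hη1 : 5 * η < 1 := lt_of_lt_of_le hηε (min_le_right _ _)
  obtain ⟨q1, i1, hq1, hq1v, hs1, hi1, hi1s, hJ1⟩ := exists_side h hv F' hη (τ := 1) (Or.inl rfl)
  obtain ⟨q2, i2, hq2, hq2v, hs2, hi2, hi2s, hJ2⟩ := exists_side h hv F' hη (τ := -1) (Or.inr rfl)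
  have hcol : ∀ i, i ∈ T v → i ∉ (({t, b, e} : Set (Fin 6))ᶜ) → i = t ∨ i = b := by
    intro i hi hi'
    have h1 : i ∈ ({t, b, e} : Set (Fin 6)) := not_not.1 hi'
    rcases h1 with h1 | h1 | h1
    · exact Or.inl h1
    · exact Or.inr h1
    · exact absurd ((show i = e from h1) ▸ hi) heV
  have hi1 := hcol i1 hi1 hi1s
  have hi2 := hcol i2 hi2 hi2s
  have hη0 : η ≤ 1 := by linarith
  have hs1' : 0 < ((q1 - u') * (starRingEnd ℂ) (v - u')).im := by linarith
  have hs2' : ((q2 - u') * (starRingEnd ℂ) (v - u')).im < 0 := by linarith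
  -- the closed region
  obtain ⟨C, hCdef⟩ : ∃ C : Set ℂ, C = {w | dist w v ≤ 1 ∧ 1 ≤ dist w q1 ∧ 1 ≤ dist w q2 ∧
    dist w u ≤ 1} := ⟨_, rfl⟩
  have hmemC : ∀ w, w ∈ C ↔ dist w v ≤ 1 ∧ 1 ≤ dist w q1 ∧ 1 ≤ dist w q2 ∧ dist w u ≤ 1 := by
    intro w; rw [hCdef]; rfl
  have hCcl : IsClosed C := by
    have e1 : C = {w | dist w v ≤ 1} ∩ ({w | 1 ≤ dist w q1} ∩ ({w | 1 ≤ dist w q2} ∩
      {w | dist w u ≤ 1})) := by
      ext w
      rw [hmemC]
      rfl
    rw [e1]
    refine (isClosed_le (by fun_prop) continuous_const).inter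
      ((isClosed_le continuous_const (by fun_prop)).inter
      ((isClosed_le continuous_const (by fun_prop)).inter
      (isClosed_le (by fun_prop) continuous_const)))
  have hCsmall : ∀ w ∈ C, dist w u < min ε 1 := by
    intro w hw
    obtain ⟨w1, w2, w3, w4⟩ := (hmemC w).1 hw
    exact (region_small hv huv hη hη0 hq1 hq1v hs1' hq2 hq2v hs2' w1 w2 w3 w4).trans hηε
  -- the boundary
  have hbd : ∀ (w q : ℂ) (i : Fin 6), w ∈ C → dist q u' = 1 →
      ((q - u') * (starRingEnd ℂ) (v - u')).im ≠ 0 →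
      (∀ᶠ q' in 𝓝[sphere u' 1] q, i ∈ T q') → dist w q = 1 → i ∉ T w := by
    intro w q i hw hq him hJ hwq1 hi
    obtain ⟨w1, w2, w3, w4⟩ := (hmemC w).1 hw
    exact region_ne hv huv him hq w1 w4 (h.mx.partner_line (u := u') (p := q) (t := i) hq
      (hJ.mono fun q' hq' => h.sub q' hq') (by rw [dist_comm]; exact hwq1) (h.sub w hi))
  -- the neighbourhood of `u` in `C`
  obtain ⟨ε', hε', hε'C⟩ : ∃ ε' > 0, ∀ w, dist w v ≤ 1 → dist w u < ε' → w ∈ C := by
    have h3 := u_far hv huv hs1'.ne' hq1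
    have h4 := u_far hv huv hs2'.ne hq2
    refine ⟨min 1 (min (dist u q1 - 1) (dist u q2 - 1)),
      lt_min one_pos (lt_min (by linarith) (by linarith)), fun w hw hwu => ?_⟩
    obtain ⟨k1, k2⟩ := lt_min_iff.1 hwu
    obtain ⟨k3, k4⟩ := lt_min_iff.1 k2
    refine (hmemC w).2 ⟨hw, ?_, ?_, k1.le⟩
    · have := dist_triangle_left u q1 w
      linarith
    · have := dist_triangle_left u q2 w
      linarith
  refine ⟨ε', hε', fun K hK ha hKu honly => ?_⟩
  have hCT : ∀ w ∈ C, K w ⊆ insert e (T w) ∧ (insert e (K w)).ncard ≤ 3 := by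
    intro w hw
    exact hKu w (lt_of_lt_of_le (hCsmall w hw) (min_le_left _ _))
  -- the enlarged palette
  obtain ⟨K2, hK2⟩ : ∃ K2 : ℂ → Set (Fin 6), K2 = fun w => {i | i ∈ K w ∨ (i = e ∧ w ∈ C)} :=
    ⟨_, rfl⟩
  have hmemK2 : ∀ w i, i ∈ K2 w ↔ i ∈ K w ∨ (i = e ∧ w ∈ C) := by
    intro w i; rw [hK2]; rfl
  have hN2 : Nice K2 v := by
    refine ⟨fun y => ?_, fun y => ?_, fun y hy => ?_⟩
    · by_cases hyC : y ∈ C
      · filter_upwards [hK.usc y] with w hw i hi
        rcases (hmemK2 w i).1 hi with h1 | h1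
        · exact (hmemK2 y i).2 (Or.inl (hw h1))
        · exact (hmemK2 y i).2 (Or.inr ⟨h1.1, hyC⟩)
      · filter_upwards [hK.usc y, hCcl.isOpen_compl.mem_nhds hyC] with w hw hwC i hi
        rcases (hmemK2 w i).1 hi with h1 | h1
        · exact (hmemK2 y i).2 (Or.inl (hw h1))
        · exact absurd h1.2 hwC
    · obtain ⟨i, hi⟩ := hK.ne y
      exact ⟨i, (hmemK2 y i).2 (Or.inl hi)⟩
    · by_cases hyC : y ∈ C
      · have h1 : K2 y ⊆ insert e (K y) := by
          intro i hi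
          rcases (hmemK2 y i).1 hi with h1 | h1
          · exact Or.inr h1
          · exact Or.inl h1.1
        exact (Set.ncard_le_ncard h1 (Set.toFinite _)).trans (hCT y hyC).2
      · have h1 : K2 y = K y := by
          ext i
          rw [hmemK2]
          exact ⟨fun h1 => h1.resolve_right fun h2 => hyC h2.2, Or.inl⟩
        rw [h1]
        exact hK.three y hy
  have hA2 : Av K2 v t := fun y hy => (ha y hy).imp fun i hi => ⟨(hmemK2 y i).2 (Or.inl hi.1), hi.2⟩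
  rw [lamS_mono hK hN2 (fun y _ i hi => (hmemK2 y i).2 (Or.inl hi)) ha (by simp)]
  -- the interior
  obtain ⟨N, hNdef⟩ : ∃ N : Set ℂ, N = {w | w ∈ C ∧ 1 < dist w q1 ∧ 1 < dist w q2} := ⟨_, rfl⟩
  have hmemN : ∀ w, w ∈ N ↔ w ∈ C ∧ 1 < dist w q1 ∧ 1 < dist w q2 := by
    intro w; rw [hNdef]; rfl
  obtain ⟨K3, hK3⟩ : ∃ K3 : ℂ → Set (Fin 6), K3 = fun w => if w ∈ N then {e} else K2 w := ⟨_, rfl⟩
  have hK3N : ∀ w ∈ N, K3 w = {e} := by intro w hw; rw [hK3]; exact if_pos hw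
  have hK3n : ∀ w, w ∉ N → K3 w = K2 w := by intro w hw; rw [hK3]; exact if_neg hw
  have hNC : ∀ w ∈ N, e ∈ K2 w := fun w hw => (hmemK2 w e).2 (Or.inr ⟨rfl, ((hmemN w).1 hw).1⟩)
  have hsub3 : ∀ w, K3 w ⊆ K2 w := by
    intro w
    by_cases hw : w ∈ N
    · rw [hK3N w hw]
      rintro i rfl
      exact hNC w hw
    · rw [hK3n w hw]
  refine lamS_zero_of_sub hN2 hA2 (by simp) (K' := K3) (fun w _ => hsub3 w) ?_ ?_ ?_
  · -- usc
    intro p hp
    by_cases hpN : p ∈ N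
    · have hpC := (hmemN p).1 hpN
      have o1 : IsOpen {w : ℂ | 1 < dist w q1} := isOpen_lt continuous_const (by fun_prop)
      have o2 : IsOpen {w : ℂ | 1 < dist w q2} := isOpen_lt continuous_const (by fun_prop)
      have o3 : IsOpen {w : ℂ | dist w u < 1} := isOpen_lt (by fun_prop) continuous_const
      have hp1 : dist p u < 1 := lt_of_lt_of_le (hCsmall p hpC.1) (min_le_right _ _)
      filter_upwards [self_mem_nhdsWithin, mem_nhdsWithin_of_mem_nhds (o1.mem_nhds hpC.2.1),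
        mem_nhdsWithin_of_mem_nhds (o2.mem_nhds hpC.2.2),
        mem_nhdsWithin_of_mem_nhds (o3.mem_nhds hp1)] with w g1 g2 g3 g4
      have g2 : 1 < dist w q1 := g2
      have g3 : 1 < dist w q2 := g3
      have g4 : dist w u < 1 := g4
      have hwN : w ∈ N := (hmemN w).2 ⟨(hmemC w).2 ⟨mem_closedBall.1 g1, g2.le, g3.le, g4.le⟩, g2, g3⟩
      rw [hK3N w hwN, hK3N p hpN]
    · rw [hK3n p hpN]
      filter_upwards [mem_nhdsWithin_of_mem_nhds (hN2.usc p)] with w hw
      exact (hsub3 w).trans hw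
  · -- labels
    intro w hw
    by_cases hwN : w ∈ N
    · exact ⟨e, by rw [hK3N w hwN]; rfl, fun _ => hte.symm⟩
    · rw [hK3n w hwN]
      by_cases hd : dist w v = 1
      · obtain ⟨i, hi, hit⟩ := hA2 w hd
        exact ⟨i, hi, fun _ => hit⟩
      · obtain ⟨i, hi⟩ := hN2.ne w
        exact ⟨i, hi, fun h1 => absurd h1 hd⟩
  · -- no point with all three colours
    intro w hw
    by_cases hwN : w ∈ N
    · refine ⟨t, by simp, ?_⟩
      rw [hK3N w hwN]
      exact hte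
    · rw [hK3n w hwN]
      by_cases hwC : w ∈ C
      · have hwC' := (hmemC w).1 hwC
        have hTK : ∀ i, i ≠ e → i ∉ T w → i ∉ K2 w := by
          intro i hie hi hi2
          rcases (hmemK2 w i).1 hi2 with h1 | h1
          · rcases (hCT w hwC).1 h1 with h2 | h2
            · exact hie h2
            · exact hi h2
          · exact hie h1.1
        have hor : dist w q1 = 1 ∨ dist w q2 = 1 := by
          by_contra hcon
          push Not at hcon
          exact hwN ((hmemN w).2 ⟨hwC, lt_of_le_of_ne hwC'.2.1 (Ne.symm hcon.1),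
            lt_of_le_of_ne hwC'.2.2.1 (Ne.symm hcon.2)⟩)
        rcases hor with h1 | h1
        · have h2 := hbd w q1 i1 hwC hq1 hs1'.ne' hJ1 h1
          rcases hi1 with h3 | h3
          · exact ⟨t, by simp, hTK t hte (h3 ▸ h2)⟩
          · exact ⟨b, by simp, hTK b hbe (h3 ▸ h2)⟩
        · have h2 := hbd w q2 i2 hwC hq2 hs2'.ne hJ2 h1
          rcases hi2 with h3 | h3
          · exact ⟨t, by simp, hTK t hte (h3 ▸ h2)⟩
          · exact ⟨b, by simp, hTK b hbe (h3 ▸ h2)⟩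
      · by_contra hcon
        push Not at hcon
        refine hwC (hε'C w (mem_closedBall.1 hw) (honly w (mem_closedBall.1 hw) fun i hi => ?_))
        have hi' : i ∈ ({t, b, e} : Finset (Fin 6)) := by
          simp only [Finset.mem_insert, Finset.mem_singleton]
          exact hi
        rcases (hmemK2 w i).1 (hcon i hi') with h1 | h1
        · exact h1
        · exact absurd h1.2 hwC

end Vale.Agent.P032.Carr
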