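import Vale.Agent.P032.S5.H678.Comp

/-!
# P032, carriers: the removal lemma

`v` a point, `u`, `u'` antipodal on the unit circle about `v`, the complement of `{t, b, e}` is a
face at `u'`, the palette of `u` is inside `{t, b, e}`, and `e` is not a colour of `v`.  The points
of `S(u')` near `v` have the colour `t` or the colour `b`; hence there are arbitrarily small
neighbourhoods of `u` in the closed disc about `v` on whose boundary `t` and `b` are not together.
So the point `u` does not contribute to the state `lamS K t v {t, b, e}`.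
-/

open Set Filter Topology Metric

noncomputable section

namespace Vale.Agent.P032.Carr

open Vale.Agent.P032.S5 Vale.Agent.P032.Six

/-- support, with a smaller palette on the closed disc -/
theorem lamS_zero_of_sub {x : ℂ} {K K' : ℂ → Set (Fin 6)} (hK : Nice K x) {a : Fin 6}
    (ha : Av K x a) {s : Finset (Fin 6)} (has : a ∈ s)
    (hsub : ∀ w ∈ closedBall x 1, K' w ⊆ K w)
    (husc : ∀ p ∈ closedBall x 1, ∀ᶠ w in 𝓝[closedBall x 1] p, K' w ⊆ K' p)
    (hne : ∀ u ∈ closedBall x 1, ∃ b, b ∈ K' u ∧ (dist u x = 1 → b ≠ a))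
    (hs : ∀ u ∈ closedBall x 1, ∃ t ∈ s, t ∉ K' u) : lamS K a x s = 0 := by
  obtain ⟨δ, hδ, hδ0⟩ := ((lamS_all hK ha).and self_mem_nhdsWithin).exists
  have hδ0 : 0 < δ := hδ0
  obtain ⟨ε, hε, hsupp⟩ := exists_supp husc hs
  choose! g hg hga using hne
  have hsph : ∀ p, dist p x = 1 → p ∈ closedBall x (1 : ℝ) := fun p hp => mem_closedBall.2 hp.le
  obtain ⟨j, hj⟩ := exists_level (lt_min hδ0 hε)
  have hl : Lb K x δ j (sl x g g j) := sl_Lb (fun p hp => hsub p hp (hg p hp))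
    (fun p hp => hsub p (hsph p hp) (hg p (hsph p hp))) hδ0 j
  rw [← hδ s has j (hj.trans_le (min_le_left _ _)) _ hl (fun k _ => by
    rw [sl_ring]
    exact hga _ (hsph _ (pt_ring x j k)) (pt_ring x j k))]
  refine hsupp j (hj.trans_le (min_le_right _ _)) _ fun i hi k _ => ?_
  unfold sl
  rw [ite_self]
  exact hg _ (pt_mem hi k)

/-! ### coordinates -/

theorem sq_dist_co {n : ℂ} (hn : ‖n‖ = 1) (a b : ℂ) :
    dist a b ^ 2 = ((a - b) * (starRingEnd ℂ) n).re ^ 2 + ((a - b) * (starRingEnd ℂ) n).im ^ 2 := by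
  have h1 : dist a b = ‖(a - b) * (starRingEnd ℂ) n‖ := by
    rw [norm_mul, RCLike.norm_conj, hn, mul_one, dist_eq_norm]
  rw [h1, Complex.sq_norm, Complex.normSq_apply]
  ring

theorem mul_conj_one {n : ℂ} (hn : ‖n‖ = 1) : n * (starRingEnd ℂ) n = 1 := by
  rw [Complex.mul_conj, Complex.normSq_eq_norm_sq, hn]
  norm_num

/-- the elementary estimate -/
theorem rem_est {x y c1 s1 c2 s2 η : ℝ} (h1 : (x + 1) ^ 2 + y ^ 2 ≤ 1) (hx : x ^ 2 + y ^ 2 ≤ 1)
    (e1 : c1 ^ 2 + s1 ^ 2 = 1) (p1 : 0 < s1) (b1 : s1 ≤ η) (g1 : 0 ≤ c1)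
    (d1 : 1 ≤ (x + 2 - c1) ^ 2 + (y - s1) ^ 2)
    (e2 : c2 ^ 2 + s2 ^ 2 = 1) (p2 : s2 < 0) (b2 : -s2 ≤ η) (g2 : 0 ≤ c2)
    (d2 : 1 ≤ (x + 2 - c2) ^ 2 + (y - s2) ^ 2) : x ^ 2 + y ^ 2 ≤ 24 * η ^ 2 := by
  have hx0 : x ≤ 0 := by linarith [sq_nonneg x, sq_nonneg y]
  have hx1 : -1 ≤ x := by
    have : x ^ 2 ≤ 1 := by linarith [sq_nonneg y]
    exact (abs_le.1 ((sq_le_one_iff_abs_le_one x).1 this)).1
  have hc1 : c1 ≤ 1 := by
    have : c1 ^ 2 ≤ 1 := by linarith [sq_nonneg s1]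
    exact (abs_le.1 ((sq_le_one_iff_abs_le_one c1).1 this)).2
  have hc2 : c2 ≤ 1 := by
    have : c2 ^ 2 ≤ 1 := by linarith [sq_nonneg s2]
    exact (abs_le.1 ((sq_le_one_iff_abs_le_one c2).1 this)).2
  have k1 : 1 - c1 ≤ s1 ^ 2 := by linarith [mul_nonneg (sub_nonneg.2 hc1) g1]
  have k2 : 1 - c2 ≤ s2 ^ 2 := by linarith [mul_nonneg (sub_nonneg.2 hc2) g2]
  have f1 := mul_nonneg (sub_nonneg.2 hc1) (neg_nonneg.2 hx0)
  have f2 := mul_nonneg (sub_nonneg.2 hc2) (neg_nonneg.2 hx0)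
  -- the two circles
  have n1 : y * s1 ≤ 2 * s1 ^ 2 := by linarith
  have n2 : y * s2 ≤ 2 * s2 ^ 2 := by linarith
  have y1 : y ≤ 2 * s1 := by
    by_contra hcon
    push Not at hcon
    have := mul_pos (sub_pos.2 hcon) p1
    linarith
  have y2 : 2 * s2 ≤ y := by
    by_contra hcon
    push Not at hcon
    have := mul_pos_of_neg_of_neg (sub_neg.2 hcon) p2
    linarith
  have hη : 0 < η := lt_of_lt_of_le p1 b1
  have q1 : y ≤ 2 * η := by linarith
  have q2 : -(2 * η) ≤ y := by linarith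
  have ys : y ^ 2 ≤ 4 * η ^ 2 := by
    have := mul_nonneg (sub_nonneg.2 q1) (sub_nonneg.2 q2)
    linarith
  have t0 : s1 ^ 2 ≤ η ^ 2 := pow_le_pow_left₀ p1.le b1 2
  have t3 : s1 * η ≤ η ^ 2 := by
    have := mul_le_mul_of_nonneg_right b1 hη.le
    linarith
  have t1 : -(y * s1) ≤ 2 * η ^ 2 := by
    have := mul_nonneg (sub_nonneg.2 q2) p1.le
    linarith
  have f3 := mul_nonneg (neg_nonneg.2 hx0) (neg_le_iff_add_nonneg.1 hx1)
  have x1 : -(12 * η ^ 2) ≤ x := by linarith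
  linarith

/-! ### the region -/

section region

variable {v u u' : ℂ} (hv : dist v u' = 1) (huv : u + u' = 2 * v)
include hv huv

theorem dist_wq (w q : ℂ) : dist w q ^ 2 =
    (((w - u) * (starRingEnd ℂ) (v - u')).re + 2 - ((q - u') * (starRingEnd ℂ) (v - u')).re) ^ 2 +
    (((w - u) * (starRingEnd ℂ) (v - u')).im - ((q - u') * (starRingEnd ℂ) (v - u')).im) ^ 2 := by
  have hn : ‖v - u'‖ = 1 := by rw [← dist_eq_norm]; exact hv
  have hnn := mul_conj_one hn
  rw [sq_dist_co hn w q]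
  have h1 : (w - q) * (starRingEnd ℂ) (v - u') = (w - u) * (starRingEnd ℂ) (v - u') + 2 -
      (q - u') * (starRingEnd ℂ) (v - u') := by
    have h2 : w - q = (w - u) + 2 * (v - u') - (q - u') := by linear_combination huv
    rw [h2]
    linear_combination 2 * hnn
  rw [h1]
  simp

theorem dist_wv (w : ℂ) : dist w v ^ 2 = (((w - u) * (starRingEnd ℂ) (v - u')).re + 1) ^ 2 +
    ((w - u) * (starRingEnd ℂ) (v - u')).im ^ 2 := by
  have hn : ‖v - u'‖ = 1 := by rw [← dist_eq_norm]; exact hv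
  have hnn := mul_conj_one hn
  rw [sq_dist_co hn w v]
  have h1 : (w - v) * (starRingEnd ℂ) (v - u') = (w - u) * (starRingEnd ℂ) (v - u') + 1 := by
    have h2 : w - v = (w - u) + (v - u') := by linear_combination huv
    rw [h2]
    linear_combination hnn
  rw [h1]
  simp

omit huv in
theorem co_q {q : ℂ} {η : ℝ} (hη : η ≤ 1) (hq : dist q u' = 1) (hqv : dist q v < η) :
    ((q - u') * (starRingEnd ℂ) (v - u')).re ^ 2 +
      ((q - u') * (starRingEnd ℂ) (v - u')).im ^ 2 = 1 ∧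
    |((q - u') * (starRingEnd ℂ) (v - u')).im| ≤ η ∧
    0 ≤ ((q - u') * (starRingEnd ℂ) (v - u')).re := by
  have hn : ‖v - u'‖ = 1 := by rw [← dist_eq_norm]; exact hv
  have hnn := mul_conj_one hn
  have h1 := sq_dist_co hn q u'
  rw [hq] at h1
  have h2 : (q - u') * (starRingEnd ℂ) (v - u') = (q - v) * (starRingEnd ℂ) (v - u') + 1 := by
    rw [← hnn]; ring
  have h3 : ‖(q - v) * (starRingEnd ℂ) (v - u')‖ < η := by
    rw [norm_mul, RCLike.norm_conj, hn, mul_one, ← dist_eq_norm]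
    exact hqv
  have h4 := Complex.abs_im_le_norm ((q - v) * (starRingEnd ℂ) (v - u'))
  have h5 := Complex.abs_re_le_norm ((q - v) * (starRingEnd ℂ) (v - u'))
  refine ⟨by linarith, ?_, ?_⟩
  · rw [h2, Complex.add_im, Complex.one_im, add_zero]
    linarith
  · rw [h2, Complex.add_re, Complex.one_re]
    have := (abs_le.1 h5).1
    linarith

/-- the region is small -/
theorem region_small {q1 q2 w : ℂ} {η : ℝ} (hη : 0 < η) (hη1 : η ≤ 1) (hq1 : dist q1 u' = 1)
    (hq1v : dist q1 v < η) (hs1 : 0 < ((q1 - u') * (starRingEnd ℂ) (v - u')).im)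
    (hq2 : dist q2 u' = 1) (hq2v : dist q2 v < η)
    (hs2 : ((q2 - u') * (starRingEnd ℂ) (v - u')).im < 0) (w1 : dist w v ≤ 1)
    (w2 : 1 ≤ dist w q1) (w3 : 1 ≤ dist w q2) (w4 : dist w u ≤ 1) : dist w u < 5 * η := by
  have hn : ‖v - u'‖ = 1 := by rw [← dist_eq_norm]; exact hv
  obtain ⟨a1, a2, a3⟩ := co_q hv hη1 hq1 hq1v
  obtain ⟨b1, b2, b3⟩ := co_q hv hη1 hq2 hq2v
  have k0 : dist w u ^ 2 ≤ 24 * η ^ 2 := by
    rw [sq_dist_co hn w u]
    refine rem_est ?_ ?_ a1 hs1 ((le_abs_self _).trans a2) a3 ?_ b1 hs2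
      ((neg_le_abs _).trans b2) b3 ?_
    · rw [← dist_wv hv huv w]
      exact pow_le_one₀ dist_nonneg w1
    · rw [← sq_dist_co hn w u]
      exact pow_le_one₀ dist_nonneg w4
    · rw [← dist_wq hv huv w q1]
      exact one_le_pow₀ w2
    · rw [← dist_wq hv huv w q2]
      exact one_le_pow₀ w3
  by_contra hcon
  push Not at hcon
  have h1 : (5 * η) ^ 2 ≤ dist w u ^ 2 := pow_le_pow_left₀ (by positivity) hcon 2
  have h2 : 0 < η ^ 2 := by positivity
  linarith

theorem u_far {q : ℂ} (him : ((q - u') * (starRingEnd ℂ) (v - u')).im ≠ 0)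
    (hq : dist q u' = 1) : 1 < dist u q := by
  have hn : ‖v - u'‖ = 1 := by rw [← dist_eq_norm]; exact hv
  have h1 := sq_dist_co hn q u'
  rw [hq] at h1
  have h2 := dist_wq hv huv u q
  rw [sub_self, zero_mul, Complex.zero_re, Complex.zero_im] at h2
  have h3 := sq_pos_of_ne_zero him
  generalize ((q - u') * (starRingEnd ℂ) (v - u')).re = cc at *
  generalize ((q - u') * (starRingEnd ℂ) (v - u')).im = ss at *
  have h4 : cc < 1 := by
    by_contra hcon
    push Not at hcon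
    have : 1 ≤ cc ^ 2 := one_le_pow₀ hcon
    linarith
  by_contra hcon
  push Not at hcon
  have h5 : dist u q ^ 2 ≤ 1 := pow_le_one₀ dist_nonneg hcon
  linarith

/-- the two points excluded by the side conditions -/
theorem region_ne {q w : ℂ} (him : ((q - u') * (starRingEnd ℂ) (v - u')).im ≠ 0)
    (hq : dist q u' = 1) (w1 : dist w v ≤ 1) (w4 : dist w u ≤ 1) :
    ¬ (w = u' ∨ w + u' = 2 * q) := by
  have hn : ‖v - u'‖ = 1 := by rw [← dist_eq_norm]; exact hv
  have hnn := mul_conj_one hn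
  have huu : u - u' = 2 * (v - u') := by linear_combination huv
  rintro (h1 | h1)
  · rw [h1] at w4
    have h2 : dist u' u = 2 := by
      rw [dist_comm, dist_eq_norm, huu, norm_mul, hn]
      simp
    linarith
  · have h2 := dist_wv hv huv w
    have h0 := sq_dist_co hn q u'
    rw [hq] at h0
    have h3 : (w - u) * (starRingEnd ℂ) (v - u') =
        2 * ((q - u') * (starRingEnd ℂ) (v - u')) - 2 := by
      have h4 : w - u = 2 * (q - u') - 2 * (v - u') := by
        linear_combination h1 - huu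
      rw [h4]
      linear_combination -2 * hnn
    rw [h3] at h2
    have h7 : (2 * ((q - u') * (starRingEnd ℂ) (v - u')) - 2).re =
        2 * ((q - u') * (starRingEnd ℂ) (v - u')).re - 2 := by simp
    have h8 : (2 * ((q - u') * (starRingEnd ℂ) (v - u')) - 2).im =
        2 * ((q - u') * (starRingEnd ℂ) (v - u')).im := by simp
    rw [h7, h8] at h2
    have h5 : dist w v ^ 2 ≤ 1 := pow_le_one₀ dist_nonneg w1
    have h6 := sq_pos_of_ne_zero him
    generalize ((q - u') * (starRingEnd ℂ) (v - u')).re = cc at *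
    generalize ((q - u') * (starRingEnd ℂ) (v - u')).im = ss at *
    have h9 : 1 ≤ cc := by linarith
    have : 1 ≤ cc ^ 2 := one_le_pow₀ h9
    linarith

end region

variable {U : Fin 6 → Set ℂ} {T : ℂ → Set (Fin 6)}

/-- a colour on an arc of `S(u')` on a prescribed side of `v` -/
theorem exists_side (h : Irr U T) {u' v : ℂ} (hv : dist v u' = 1) {s' : Set (Fin 6)}
    (F' : Fc T u' s') {η : ℝ} (hη : 0 < η) {τ : ℝ} (hτ : τ = 1 ∨ τ = -1) :
    ∃ (q : ℂ) (i : Fin 6), dist q u' = 1 ∧ dist q v < η ∧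
      0 < τ * ((q - u') * (starRingEnd ℂ) (v - u')).im ∧ i ∈ T v ∧ i ∉ s' ∧
      ∀ᶠ q' in 𝓝[sphere u' 1] q, i ∈ T q' := by
  have hn : ‖v - u'‖ = 1 := by rw [← dist_eq_norm]; exact hv
  -- a point of the circle on the right side
  have hc : Continuous fun φ : ℝ => u' + (v - u') * cis (τ * φ) := by
    have := continuous_cis
    fun_prop
  have h0 : u' + (v - u') * cis (τ * 0) = v := by
    rw [mul_zero]
    unfold cis
    simp
  have hN : {w | T w ⊆ T v} ∩ ball v η ∈ 𝓝 v := inter_mem (h.nhd v) (ball_mem_nhds v hη)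
  have h1 : ∀ᶠ φ in 𝓝 (0 : ℝ), u' + (v - u') * cis (τ * φ) ∈ interior ({w | T w ⊆ T v} ∩ ball v η) :=
    hc.continuousAt.eventually (isOpen_interior.mem_nhds (by
      show u' + (v - u') * cis (τ * 0) ∈ _
      rw [h0]
      exact mem_interior_iff_mem_nhds.2 hN))
  obtain ⟨φ, ⟨hφ1, hφ2⟩, hφ3⟩ : ∃ φ : ℝ, (u' + (v - u') * cis (τ * φ) ∈
      interior ({w | T w ⊆ T v} ∩ ball v η) ∧ φ < 1) ∧ 0 < φ :=
    (((h1.and (Iio_mem_nhds (by norm_num : (0 : ℝ) < 1))).filter_mono nhdsWithin_le_nhds).and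
      self_mem_nhdsWithin).exists (f := 𝓝[>] (0 : ℝ))
  obtain ⟨y, hy⟩ : ∃ y, y = u' + (v - u') * cis (τ * φ) := ⟨_, rfl⟩
  rw [← hy] at hφ1
  have hyS : y ∈ sphere u' (1 : ℝ) := by
    rw [mem_sphere, dist_eq_norm, hy, add_sub_cancel_left, norm_mul, hn, norm_cis, one_mul]
  have him : ∀ φ : ℝ, ((u' + (v - u') * cis φ - u') * (starRingEnd ℂ) (v - u')).im = Real.sin φ := by
    intro φ
    have : (u' + (v - u') * cis φ - u') * (starRingEnd ℂ) (v - u') = cis φ := by
      calc _ = ((v - u') * (starRingEnd ℂ) (v - u')) * cis φ := by ring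
        _ = cis φ := by rw [mul_conj_one hn, one_mul]
    rw [this, cis, Complex.exp_ofReal_mul_I_im]
  have hside : 0 < τ * ((y - u') * (starRingEnd ℂ) (v - u')).im := by
    rw [hy, him]
    have hs : 0 < Real.sin φ := Real.sin_pos_of_pos_of_lt_pi hφ3 (by
      have := Real.pi_gt_three
      linarith)
    rcases hτ with rfl | rfl
    · simpa using hs
    · rw [neg_one_mul, neg_one_mul, Real.sin_neg]
      linarith
  have hO : IsOpen {w : ℂ | 0 < τ * ((w - u') * (starRingEnd ℂ) (v - u')).im} := by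
    refine isOpen_lt continuous_const ?_
    fun_prop
  obtain ⟨q, ⟨⟨hq1, hq2⟩, hqS⟩, hqc⟩ := h.const (S := sphere u' 1) (y := y) hyS
    (inter_mem (isOpen_interior.mem_nhds hφ1) (hO.mem_nhds hside))
  have hq1 := interior_subset hq1
  have hqS : dist q u' = 1 := hqS
  obtain ⟨i, hi, hi'⟩ : ∃ i ∈ T q, i ∉ s' := by
    by_contra hcon
    push Not at hcon
    exact F'.full q hqS hcon
  exact ⟨q, i, hqS, hq1.2, hq2, hq1.1 hi, hi', hqc.mono fun q' hq' => by rw [hq']; exact hi⟩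

/-- **Removal lemma** -/
theorem rem_zero (h : Irr U T) {K : ℂ → Set (Fin 6)} {v u u' : ℂ} {t b e : Fin 6}
    (hK : Nice K v) (ha : Av K v t) (hev : ∀ᶠ w in 𝓝 u, K w = T w) (hte : t ≠ e)
    (hbe : b ≠ e) (F' : Fc T u' ({t, b, e} : Set (Fin 6))ᶜ) (hv : dist v u' = 1)
    (huv : u + u' = 2 * v) (heV : e ∉ T v) (hTu : T u ⊆ {t, b, e})
    (honly : ∀ w ∈ closedBall v 1, (∀ i ∈ ({t, b, e} : Finset (Fin 6)), i ∈ K w) → w = u) :
    lamS K t v {t, b, e} = 0 := by
  classical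
  have hn : ‖v - u'‖ = 1 := by rw [← dist_eq_norm]; exact hv
  -- the scale
  obtain ⟨ε, hε, hεK⟩ := Metric.eventually_nhds_iff.1 (hev.and (h.nhd u))
  obtain ⟨η, hη, hηε⟩ : ∃ η : ℝ, 0 < η ∧ 5 * η < min ε 1 := by
    refine ⟨min ε 1 / 6, ?_, ?_⟩
    · have := lt_min hε one_pos
      positivity
    · have := lt_min hε one_pos
      linarith
  have hη1 : 5 * η < 1 := lt_of_lt_of_le hηε (min_le_right _ _)
  obtain ⟨q1, i1, hq1, hq1v, hs1, hi1, hi1s, hJ1⟩ := exists_side h hv F' hη (τ := 1) (Or.inl rfl)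
  obtain ⟨q2, i2, hq2, hq2v, hs2, hi2, hi2s, hJ2⟩ := exists_side h hv F' hη (τ := -1) (Or.inr rfl)
  have hcol : ∀ i, i ∈ T v → i ∉ (({t, b, e} : Set (Fin 6))ᶜ) → i = t ∨ i = b := by
    intro i hi hi'
    have h1 : i ∈ ({t, b, e} : Set (Fin 6)) := not_not.1 hi'
    rcases h1 with h1 | h1 | h1
    · exact Or.inl h1
    · exact Or.inr h1
    · exact absurd ((show i = e from h1) ▸ hi) heV
  have hi1 := hcol i1 hi1 hi1s
  have hi2 := hcol i2 hi2 hi2s
  have hη0 : η ≤ 1 := by linarith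
  have hs1' : 0 < ((q1 - u') * (starRingEnd ℂ) (v - u')).im := by linarith
  have hs2' : ((q2 - u') * (starRingEnd ℂ) (v - u')).im < 0 := by linarith
  -- the closed region
  obtain ⟨C, hCdef⟩ : ∃ C : Set ℂ, C = {w | dist w v ≤ 1 ∧ 1 ≤ dist w q1 ∧ 1 ≤ dist w q2 ∧
    dist w u ≤ 1} := ⟨_, rfl⟩
  have hmemC : ∀ w, w ∈ C ↔ dist w v ≤ 1 ∧ 1 ≤ dist w q1 ∧ 1 ≤ dist w q2 ∧ dist w u ≤ 1 := by
    intro w; rw [hCdef]; rfl
  have hCcl : IsClosed C := by
    have e1 : C = {w | dist w v ≤ 1} ∩ ({w | 1 ≤ dist w q1} ∩ ({w | 1 ≤ dist w q2} ∩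
      {w | dist w u ≤ 1})) := by
      ext w
      rw [hmemC]
      rfl
    rw [e1]
    refine (isClosed_le (by fun_prop) continuous_const).inter
      ((isClosed_le continuous_const (by fun_prop)).inter
      ((isClosed_le continuous_const (by fun_prop)).inter
      (isClosed_le (by fun_prop) continuous_const)))
  have hCsmall : ∀ w ∈ C, dist w u < min ε 1 := by
    intro w hw
    obtain ⟨w1, w2, w3, w4⟩ := (hmemC w).1 hw
    exact (region_small hv huv hη hη0 hq1 hq1v hs1' hq2 hq2v hs2' w1 w2 w3 w4).trans hηε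
  have hCT : ∀ w ∈ C, K w = T w ∧ K w ⊆ {t, b, e} := by
    intro w hw
    obtain ⟨k1, k2⟩ := hεK (lt_of_lt_of_le (hCsmall w hw) (min_le_left _ _))
    exact ⟨k1, by rw [k1]; exact k2.trans hTu⟩
  -- the boundary
  have hbd : ∀ (w q : ℂ) (i : Fin 6), w ∈ C → dist q u' = 1 →
      ((q - u') * (starRingEnd ℂ) (v - u')).im ≠ 0 →
      (∀ᶠ q' in 𝓝[sphere u' 1] q, i ∈ T q') → dist w q = 1 → i ∉ T w := by
    intro w q i hw hq him hJ hwq1 hi
    obtain ⟨w1, w2, w3, w4⟩ := (hmemC w).1 hw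
    exact region_ne hv huv him hq w1 w4 (h.mx.partner_line (u := u') (p := q) (t := i) hq
      (hJ.mono fun q' hq' => h.sub q' hq') (by rw [dist_comm]; exact hwq1) (h.sub w hi))
  -- the enlarged palette
  obtain ⟨K2, hK2⟩ : ∃ K2 : ℂ → Set (Fin 6), K2 = fun w => {i | i ∈ K w ∨ (i = e ∧ w ∈ C)} :=
    ⟨_, rfl⟩
  have hmemK2 : ∀ w i, i ∈ K2 w ↔ i ∈ K w ∨ (i = e ∧ w ∈ C) := by
    intro w i; rw [hK2]; rfl
  have hN2 : Nice K2 v := by
    refine ⟨fun y => ?_, fun y => ?_, fun y hy => ?_⟩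
    · by_cases hyC : y ∈ C
      · filter_upwards [hK.usc y] with w hw i hi
        rcases (hmemK2 w i).1 hi with h1 | h1
        · exact (hmemK2 y i).2 (Or.inl (hw h1))
        · exact (hmemK2 y i).2 (Or.inr ⟨h1.1, hyC⟩)
      · filter_upwards [hK.usc y, hCcl.isOpen_compl.mem_nhds hyC] with w hw hwC i hi
        rcases (hmemK2 w i).1 hi with h1 | h1
        · exact (hmemK2 y i).2 (Or.inl (hw h1))
        · exact absurd h1.2 hwC
    · obtain ⟨i, hi⟩ := hK.ne y
      exact ⟨i, (hmemK2 y i).2 (Or.inl hi)⟩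
    · by_cases hyC : y ∈ C
      · have h1 : K2 y ⊆ (({t, b, e} : Finset (Fin 6)) : Set (Fin 6)) := by
          intro i hi
          simp only [Finset.coe_insert, Finset.coe_singleton]
          rcases (hmemK2 y i).1 hi with h1 | h1
          · exact (hCT y hyC).2 h1
          · rw [h1.1]; simp
        have h2 := Set.ncard_le_ncard h1 (Set.toFinite _)
        rw [Set.ncard_coe_finset] at h2
        exact h2.trans (Finset.card_le_three)
      · have h1 : K2 y = K y := by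
          ext i
          rw [hmemK2]
          exact ⟨fun h1 => h1.resolve_right fun h2 => hyC h2.2, Or.inl⟩
        rw [h1]
        exact hK.three y hy
  have hA2 : Av K2 v t := fun y hy => (ha y hy).imp fun i hi => ⟨(hmemK2 y i).2 (Or.inl hi.1), hi.2⟩
  rw [lamS_mono hK hN2 (fun y _ i hi => (hmemK2 y i).2 (Or.inl hi)) ha (by simp)]
  -- the interior
  obtain ⟨N, hNdef⟩ : ∃ N : Set ℂ, N = {w | w ∈ C ∧ 1 < dist w q1 ∧ 1 < dist w q2} := ⟨_, rfl⟩
  have hmemN : ∀ w, w ∈ N ↔ w ∈ C ∧ 1 < dist w q1 ∧ 1 < dist w q2 := by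
    intro w; rw [hNdef]; rfl
  obtain ⟨K3, hK3⟩ : ∃ K3 : ℂ → Set (Fin 6), K3 = fun w => if w ∈ N then {e} else K2 w := ⟨_, rfl⟩
  have hK3N : ∀ w ∈ N, K3 w = {e} := by intro w hw; rw [hK3]; exact if_pos hw
  have hK3n : ∀ w, w ∉ N → K3 w = K2 w := by intro w hw; rw [hK3]; exact if_neg hw
  have hNC : ∀ w ∈ N, e ∈ K2 w := fun w hw => (hmemK2 w e).2 (Or.inr ⟨rfl, ((hmemN w).1 hw).1⟩)
  have hsub3 : ∀ w, K3 w ⊆ K2 w := by
    intro w
    by_cases hw : w ∈ N
    · rw [hK3N w hw]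
      rintro i rfl
      exact hNC w hw
    · rw [hK3n w hw]
  -- `u ∈ N`
  have huN : u ∈ N := by
    rw [hmemN, hmemC]
    have h2 : dist u v = 1 := by
      rw [dist_eq_norm, show u - v = v - u' by linear_combination huv]
      exact hn
    have h3 := u_far hv huv hs1'.ne' hq1
    have h4 := u_far hv huv hs2'.ne hq2
    exact ⟨⟨h2.le, h3.le, h4.le, by rw [dist_self]; norm_num⟩, h3, h4⟩
  refine lamS_zero_of_sub hN2 hA2 (by simp) (K' := K3) (fun w _ => hsub3 w) ?_ ?_ ?_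
  · -- usc
    intro p hp
    by_cases hpN : p ∈ N
    · have hpC := (hmemN p).1 hpN
      have o1 : IsOpen {w : ℂ | 1 < dist w q1} := isOpen_lt continuous_const (by fun_prop)
      have o2 : IsOpen {w : ℂ | 1 < dist w q2} := isOpen_lt continuous_const (by fun_prop)
      have o3 : IsOpen {w : ℂ | dist w u < 1} := isOpen_lt (by fun_prop) continuous_const
      have hp1 : dist p u < 1 := lt_of_lt_of_le (hCsmall p hpC.1) (min_le_right _ _)
      filter_upwards [self_mem_nhdsWithin, mem_nhdsWithin_of_mem_nhds (o1.mem_nhds hpC.2.1),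
        mem_nhdsWithin_of_mem_nhds (o2.mem_nhds hpC.2.2),
        mem_nhdsWithin_of_mem_nhds (o3.mem_nhds hp1)] with w g1 g2 g3 g4
      have g2 : 1 < dist w q1 := g2
      have g3 : 1 < dist w q2 := g3
      have g4 : dist w u < 1 := g4
      have hwN : w ∈ N := (hmemN w).2 ⟨(hmemC w).2 ⟨mem_closedBall.1 g1, g2.le, g3.le, g4.le⟩, g2, g3⟩
      rw [hK3N w hwN, hK3N p hpN]
    · rw [hK3n p hpN]
      filter_upwards [mem_nhdsWithin_of_mem_nhds (hN2.usc p)] with w hw
      exact (hsub3 w).trans hw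
  · -- labels
    intro w hw
    by_cases hwN : w ∈ N
    · exact ⟨e, by rw [hK3N w hwN]; rfl, fun _ => hte.symm⟩
    · rw [hK3n w hwN]
      by_cases hd : dist w v = 1
      · obtain ⟨i, hi, hit⟩ := hA2 w hd
        exact ⟨i, hi, fun _ => hit⟩
      · obtain ⟨i, hi⟩ := hN2.ne w
        exact ⟨i, hi, fun h1 => absurd h1 hd⟩
  · -- no point with all three colours
    intro w hw
    by_cases hwN : w ∈ N
    · refine ⟨t, by simp, ?_⟩
      rw [hK3N w hwN]
      exact hte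
    · rw [hK3n w hwN]
      by_cases hwC : w ∈ C
      · have hwC' := (hmemC w).1 hwC
        have hTK : ∀ i, i ≠ e → i ∉ T w → i ∉ K2 w := by
          intro i hie hi hi2
          rcases (hmemK2 w i).1 hi2 with h1 | h1
          · rw [(hCT w hwC).1] at h1
            exact hi h1
          · exact hie h1.1
        have hor : dist w q1 = 1 ∨ dist w q2 = 1 := by
          by_contra hcon
          push Not at hcon
          exact hwN ((hmemN w).2 ⟨hwC, lt_of_le_of_ne hwC'.2.1 (Ne.symm hcon.1),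
            lt_of_le_of_ne hwC'.2.2.1 (Ne.symm hcon.2)⟩)
        rcases hor with h1 | h1
        · have h2 := hbd w q1 i1 hwC hq1 hs1'.ne' hJ1 h1
          rcases hi1 with h3 | h3
          · exact ⟨t, by simp, hTK t hte (h3 ▸ h2)⟩
          · exact ⟨b, by simp, hTK b hbe (h3 ▸ h2)⟩
        · have h2 := hbd w q2 i2 hwC hq2 hs2'.ne hJ2 h1
          rcases hi2 with h3 | h3
          · exact ⟨t, by simp, hTK t hte (h3 ▸ h2)⟩
          · exact ⟨b, by simp, hTK b hbe (h3 ▸ h2)⟩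
      · by_contra hcon
        push Not at hcon
        refine hwC ?_
        have : w = u := honly w hw fun i hi => by
          rcases (hmemK2 w i).1 (hcon i hi) with h1 | h1
          · exact h1
          · exact absurd h1.2 hwC
        rw [this]
        exact ((hmemN u).1 huN).1

end Vale.Agent.P032.Carr
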